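import Vale.Agent.P180.R2.H589.Bt.Out2

/-!
P180: **the outer automorphism group of `PSL(d, K)`, `d ≥ 3`, `K` a finite field, is solvable.**
-/

set_option linter.all false

namespace Vale.Agent.P180.R2.H589.Bt

open Subgroup Module
open scoped commutatorElement
open Vale.Agent.P180.R2.H589.Sch

variable {K : Type*} [Field K] {n : ℕ} {T : Type*} [Group T] {π : GS (n + 1) K →* T}

theorem card_RT [Finite K] (p : ℕ) [Fact p.Prime] [CharP K p]
    (hker : π.ker = center (GS (n + 1) K)) (W : Submodule K (Fin (n + 1) → K)) :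
    Nat.card (RT π W) = Nat.card (RW W) := by
  symm
  refine Nat.card_congr (Equiv.ofBijective (fun r : RW W => (⟨π r, r, r.2, rfl⟩ : RT π W)) ?_)
  constructor
  · intro r s h
    have h1 : π (r : GS (n + 1) K) = π (s : GS (n + 1) K) := congrArg Subtype.val h
    exact Subtype.ext (pel_unique (p := p) (ker_le hker) (not_dvd_ker hker)
      ⟨1, by rw [pow_one]; exact RW_pow r.2⟩ ⟨1, by rw [pow_one]; exact RW_pow s.2⟩ h1)
  · rintro ⟨_, r, hr, rfl⟩
    exact ⟨⟨r, hr⟩, rfl⟩

theorem mem_map_aut {R : Subgroup T} (α : MulAut T) (t : T) :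
    α t ∈ R.map α.toMonoidHom ↔ t ∈ R := by
  constructor
  · rintro ⟨y, hy, hyx⟩
    rwa [← α.injective hyx]
  · intro h
    exact ⟨t, h, rfl⟩

theorem RT_conj {W W' : Submodule K (Fin (n + 1) → K)} {g : GS (n + 1) K}
    (hg : ∀ x, nat (n + 1) K g x ∈ W' ↔ x ∈ W) (t : T) :
    t ∈ RT π W ↔ π g * t * (π g)⁻¹ ∈ RT π W' := by
  have key : ∀ {W W' : Submodule K (Fin (n + 1) → K)} {g : GS (n + 1) K},
      (∀ x, nat (n + 1) K g x ∈ W' ↔ x ∈ W) → ∀ t : T, t ∈ RT π W →
        π g * t * (π g)⁻¹ ∈ RT π W' := by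
    rintro W W' g hg _ ⟨r, hr, rfl⟩
    refine ⟨g * r * g⁻¹, ?_, by rw [map_mul, map_mul, map_inv]⟩
    refine ⟨fun w hw => ?_, fun x => ?_⟩
    · rw [nat_mul_apply, nat_mul_apply, hr.1 _ ((hg _).1 (by rw [nat_inv_apply]; exact hw)),
        nat_inv_apply]
    · have h1 := (hg _).2 (hr.2 (nat (n + 1) K g⁻¹ x))
      rwa [map_sub, nat_inv_apply, ← nat_mul_apply, ← nat_mul_apply] at h1
  refine ⟨key hg t, fun h => ?_⟩
  have h1 := key (g := g⁻¹) (W := W') (W' := W) (fun x => by
    rw [← hg, nat_inv_apply]) _ h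
  rw [map_inv] at h1
  have h2 : (π g)⁻¹ * (π g * t * (π g)⁻¹) * (π g)⁻¹⁻¹ = t := by group
  rwa [h2] at h1

theorem mem_of_map {α β : MulAut T} {W W' : Submodule K (Fin (n + 1) → K)}
    (hα : (RT π (H0 n K)).map α.toMonoidHom = RT π W)
    (hβ : (RT π (H0 n K)).map β.toMonoidHom = RT π W') {g : GS (n + 1) K}
    (hg : ∀ x, nat (n + 1) K g x ∈ W' ↔ x ∈ W) :
    α⁻¹ * β ∈ (MulAut.conj : T →* MulAut T).range ⊔ AR π := by
  have h1 : α⁻¹ * β = (α⁻¹ * MulAut.conj (π g) * α⁻¹⁻¹) *
      (α⁻¹ * (MulAut.conj (π g))⁻¹ * β) := by group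
  rw [h1]
  refine Subgroup.mul_mem _ (mem_sup_left ?_) (mem_sup_right ?_)
  · exact inn_normal.conj_mem _ ⟨π g, rfl⟩ _
  · intro t
    rw [← mem_map_aut α, hα, RT_conj hg]
    have h2 : π g * (α ((α⁻¹ * (MulAut.conj (π g))⁻¹ * β) t)) * (π g)⁻¹ = β t := by
      rw [MulAut.mul_apply, MulAut.mul_apply]
      have h3 : α (α⁻¹ ((MulAut.conj (π g))⁻¹ (β t))) = (MulAut.conj (π g))⁻¹ (β t) :=
        α.apply_symm_apply _
      rw [h3]
      exact (MulAut.conj (π g)).apply_symm_apply (β t)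
    rw [h2, ← hβ, mem_map_aut]

/-- All hyperplanes are conjugate. -/
theorem exists_move_hyp {W : Submodule K (Fin (n + 1) → K)} (hW : finrank K W = n) :
    ∃ g : GS (n + 1) K, ∀ x, nat (n + 1) K g x ∈ W ↔ x ∈ H0 n K := by
  obtain ⟨v, hv⟩ : ∃ v, v ∉ W := by
    by_contra hc
    push Not at hc
    rw [Submodule.eq_top_iff'.mpr hc, finrank_top, Module.finrank_fin_fun] at hW
    omega
  obtain ⟨ψ, hψ, hψv⟩ := exists_sep hv
  have hker : W = LinearMap.ker ψ := by
    apply Submodule.eq_of_le_of_finrank_eq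
    · intro w hw
      exact hψ w hw
    · have h1 := LinearMap.finrank_range_add_finrank_ker ψ
      have h2 : LinearMap.range ψ = ⊤ := by
        rw [LinearMap.range_eq_top]
        intro c
        exact ⟨c • v, by rw [map_smul, hψv, smul_eq_mul, mul_one]⟩
      rw [h2, finrank_top, Module.finrank_self, Module.finrank_fin_fun] at h1
      omega
  let φ : Dual K (Fin (n + 1) → K) := LinearMap.proj 0
  have hφ : φ (Pi.single 0 1) = 1 := by
    change (Pi.single 0 1 : Fin (n + 1) → K) 0 = 1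
    rw [Pi.single_eq_same]
  have hφ0 : φ ≠ 0 := by
    intro h
    rw [h, LinearMap.zero_apply] at hφ
    exact zero_ne_one hφ
  by_cases hdep : ψ ∈ Submodule.span K {φ}
  · obtain ⟨c, rfl⟩ := Submodule.mem_span_singleton.mp hdep
    have hc : c ≠ 0 := by
      rintro rfl
      rw [zero_smul, LinearMap.zero_apply] at hψv
      exact zero_ne_one hψv
    refine ⟨1, fun x => ?_⟩
    rw [map_one, hker]
    change (c • φ) x = 0 ↔ x 0 = 0
    rw [LinearMap.smul_apply, smul_eq_mul, mul_eq_zero, or_iff_right hc]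
    rfl
  · have hind : LinearIndependent K ![φ, ψ] := by
      rw [LinearIndependent.pair_iff' hφ0]
      intro c hc
      exact hdep (Submodule.mem_span_singleton.mpr ⟨c, hc⟩)
    obtain ⟨a, ha1, ha2⟩ := exists_vec hind
    obtain ⟨g, hg⟩ := exists_tv (φ := φ - ψ) (a := a) (by
      rw [LinearMap.sub_apply, ha1, ha2, sub_self])
    refine ⟨g, fun x => ?_⟩
    rw [hker, LinearMap.mem_ker, hg, map_add, map_smul, ha2, LinearMap.sub_apply, smul_eq_mul,
      mul_one, add_sub_cancel]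
    rfl

theorem exists_move_line (hn : 1 ≤ n) {W W' : Submodule K (Fin (n + 1) → K)}
    (hW : finrank K W = 1) (hW' : finrank K W' = 1) :
    ∃ g : GS (n + 1) K, ∀ x, nat (n + 1) K g x ∈ W' ↔ x ∈ W := by
  have key : ∀ W : Submodule K (Fin (n + 1) → K), finrank K W = 1 →
      ∃ v : Fin (n + 1) → K, v ≠ 0 ∧ W = Submodule.span K {v} := by
    intro W hW
    obtain ⟨v, hv, h⟩ := finrank_eq_one_iff'.mp hW
    refine ⟨v, fun h0 => hv (Subtype.ext h0), le_antisymm (fun w hw => ?_) ?_⟩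
    · obtain ⟨c, hc⟩ := h ⟨w, hw⟩
      exact Submodule.mem_span_singleton.mpr ⟨c, congrArg Subtype.val hc⟩
    · rw [Submodule.span_singleton_le_iff_mem]
      exact v.2
  obtain ⟨v, hv, rfl⟩ := key W hW
  obtain ⟨w, hw, rfl⟩ := key W' hW'
  obtain ⟨g, rfl⟩ := exists_move hn hv hw
  refine ⟨g, fun x => ?_⟩
  rw [Submodule.mem_span_singleton, Submodule.mem_span_singleton]
  constructor
  · rintro ⟨c, hc⟩
    refine ⟨c, (nat (n + 1) K g).injective ?_⟩
    rw [map_smul, hc]
  · rintro ⟨c, rfl⟩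
    exact ⟨c, (map_smul _ _ _).symm⟩

theorem arith {n k : ℕ} (hk : 1 ≤ k) (hkn : k ≤ n) (h : (n + 1 - k) * k = n) : k = 1 ∨ k = n := by
  obtain ⟨j, rfl⟩ : ∃ j, n = k + j := ⟨n - k, by omega⟩
  have h1 : k + j + 1 - k = j + 1 := by omega
  rw [h1] at h
  by_cases hk1 : k = 1
  · exact Or.inl hk1
  · right
    have h2 : j * (k - 1) = 0 := by
      obtain ⟨m, rfl⟩ : ∃ m, k = m + 1 := ⟨k - 1, by omega⟩
      rw [Nat.add_sub_cancel]
      nlinarith
    rcases Nat.mul_eq_zero.mp h2 with h3 | h3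
    · omega
    · omega

theorem finrank_of_aut [Finite K] (p : ℕ) [Fact p.Prime] [CharP K p] (hn : 2 ≤ n)
    (hπ : Function.Surjective π) (hker : π.ker = center (GS (n + 1) K)) (α : MulAut T)
    {V : Submodule K (Fin (n + 1) → K)} (hV : finrank K V = 1 ∨ finrank K V = n) :
    ∃ W : Submodule K (Fin (n + 1) → K),
      (RT π V).map α.toMonoidHom = RT π W ∧ (finrank K W = 1 ∨ finrank K W = n) := by
  have hV0 : V ≠ ⊥ := by
    rintro rfl
    rw [finrank_bot] at hV
    omega
  have hV1 : V ≠ ⊤ := by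
    rintro rfl
    rw [finrank_top, Module.finrank_fin_fun] at hV
    omega
  obtain ⟨W, hW0, hW1, hW⟩ := exists_RT_of_aut p (by omega) hπ hker hV0 hV1 α
  refine ⟨W, hW, ?_⟩
  have h1 : Nat.card (RT π V) = Nat.card (RT π W) := by
    rw [← hW]
    exact Nat.card_congr (α.subgroupMap (RT π V)).toEquiv
  rw [card_RT p hker, card_RT p hker, card_RW p, card_RW p] at h1
  have h2 := Nat.pow_right_injective (Finite.one_lt_card (α := K)) h1
  have h3 : (n + 1 - finrank K V) * finrank K V = n := by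
    rcases hV with h | h
    · rw [h, mul_one, Nat.add_sub_cancel]
    · have : n + 1 - n = 1 := by omega
      rw [h, this, one_mul]
  rw [h3] at h2
  have h4 : 1 ≤ finrank K W := by
    rw [Nat.one_le_iff_ne_zero]
    intro h
    exact hW0 (Submodule.finrank_eq_zero.mp h)
  have h5 : finrank K W ≤ n := by
    have h6 := Submodule.finrank_lt hW1
    rw [Module.finrank_fin_fun] at h6
    omega
  exact arith h4 h5 h2.symm

/-- The group generated by the inner automorphisms and the stabiliser of the radical has index at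
most two. -/
theorem mul_mem_sup_iff [Finite K] (p : ℕ) [Fact p.Prime] [CharP K p] (hn : 2 ≤ n)
    (hπ : Function.Surjective π) (hker : π.ker = center (GS (n + 1) K)) (α β : MulAut T) :
    α * β ∈ (MulAut.conj : T →* MulAut T).range ⊔ AR π ↔
      (α ∈ (MulAut.conj : T →* MulAut T).range ⊔ AR π ↔
        β ∈ (MulAut.conj : T →* MulAut T).range ⊔ AR π) := by
  obtain ⟨H, hH⟩ : ∃ H, H = (MulAut.conj : T →* MulAut T).range ⊔ AR π := ⟨_, rfl⟩
  rw [← hH]
  have hH0 : H0 n K ≠ ⊥ := H0_ne_bot (by omega)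
  have hfin : ∀ α : MulAut T, ∃ W : Submodule K (Fin (n + 1) → K),
      (RT π (H0 n K)).map α.toMonoidHom = RT π W ∧ (finrank K W = 1 ∨ finrank K W = n) :=
    fun α => finrank_of_aut p hn hπ hker α (Or.inr finrank_H0)
  have hone : (RT π (H0 n K)).map (1 : MulAut T).toMonoidHom = RT π (H0 n K) := by
    ext t
    exact mem_map_aut 1 t
  have hmem : ∀ {α : MulAut T} {W : Submodule K (Fin (n + 1) → K)},
      (RT π (H0 n K)).map α.toMonoidHom = RT π W → finrank K W = n → α ∈ H := by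
    intro α W hα hW
    obtain ⟨g, hg⟩ := exists_move_hyp hW
    have h1 := mem_of_map hone hα hg
    rw [inv_one, one_mul] at h1
    rw [hH]
    exact h1
  have htwo : ∀ {α β : MulAut T}, α ∉ H → β ∉ H → α⁻¹ * β ∈ H := by
    intro α β hα hβ
    obtain ⟨W, hW, h1⟩ := hfin α
    obtain ⟨W', hW', h2⟩ := hfin β
    have h1' := h1.resolve_right fun h => hα (hmem hW h)
    have h2' := h2.resolve_right fun h => hβ (hmem hW' h)
    obtain ⟨g, hg⟩ := exists_move_line (by omega) h1' h2'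
    rw [hH]
    exact mem_of_map hW hW' hg
  by_cases hα : α ∈ H
  · rw [Subgroup.mul_mem_cancel_left _ hα]
    exact ⟨fun h => ⟨fun _ => h, fun _ => hα⟩, fun h => h.mp hα⟩
  · by_cases hβ : β ∈ H
    · rw [Subgroup.mul_mem_cancel_right _ hβ]
      exact ⟨fun h => absurd h hα, fun h => h.mpr hβ⟩
    · have h1 := htwo (α := α⁻¹) (β := β) (fun h => hα (by
        rw [← inv_inv α]; exact H.inv_mem h)) hβ
      rw [inv_inv] at h1
      exact ⟨fun _ => ⟨fun h => absurd h hα, fun h => absurd h hβ⟩, fun _ => h1⟩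

theorem derived_zero [Finite K] (p : ℕ) [Fact p.Prime] [CharP K p] (hn : 2 ≤ n)
    (hπ : Function.Surjective π) (hker : π.ker = center (GS (n + 1) K)) :
    ⁅(⊤ : Subgroup (MulAut T)), (⊤ : Subgroup (MulAut T))⁆ ≤
      (MulAut.conj : T →* MulAut T).range ⊔ AR π := by
  have hiff := mul_mem_sup_iff p hn hπ hker
  obtain ⟨H, hH⟩ : ∃ H, H = (MulAut.conj : T →* MulAut T).range ⊔ AR π := ⟨_, rfl⟩
  rw [← hH] at hiff ⊢
  rw [commutator_le]
  intro α _ β _
  rw [commutatorElement_def, hiff, hiff, hiff, Subgroup.inv_mem_iff, Subgroup.inv_mem_iff]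
  tauto

/-- **`Out(PSL(d, K))` is solvable for `d ≥ 3`.** -/
theorem derived_le_conj_of_surj [Finite K] (hn : 2 ≤ n)
    (hπ : Function.Surjective π) (hker : π.ker = center (GS (n + 1) K)) :
    derivedSeries (MulAut T) 5 ≤ (MulAut.conj : T →* MulAut T).range := by
  haveI hp : Fact (ringChar K).Prime := ⟨CharP.char_is_prime K (ringChar K)⟩
  set p := ringChar K with hpdef
  set I := (MulAut.conj : T →* MulAut T).range with hI
  have hH0 : H0 n K ≠ ⊥ := H0_ne_bot (by omega)
  have hcomm : ∀ x ∈ (RT π (H0 n K) : Subgroup T), ∀ y ∈ (RT π (H0 n K) : Subgroup T),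
      x * y = y * x := by
    rintro _ ⟨r, hr, rfl⟩ _ ⟨s, hs, rfl⟩
    rw [← map_mul, RW_comm hr hs, map_mul]
  have d1 : derivedSeries (MulAut T) 1 ≤ I ⊔ AR π := by
    rw [derivedSeries_succ, derivedSeries_zero]
    exact derived_zero p hn hπ hker
  have d2 : derivedSeries (MulAut T) 2 ≤ I ⊔ AL π := by
    rw [derivedSeries_succ]
    exact (commutator_le_sup d1).trans (sup_le_sup_left (derived_one p hn hπ hker) I)
  have d3 : derivedSeries (MulAut T) 3 ≤ I ⊔ K1 (RT π (H0 n K)) := by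
    rw [derivedSeries_succ]
    refine (commutator_le_sup d2).trans (sup_le le_sup_left ?_)
    exact derived_two (by omega)
  have d4 : derivedSeries (MulAut T) 4 ≤
      I ⊔ K1 (normalizer ((RT π (H0 n K) : Subgroup T) : Set T)) := by
    rw [derivedSeries_succ]
    exact (commutator_le_sup d3).trans (sup_le_sup_left (derived_three hcomm
      (centralizer_map_RW (p := p) hπ hker hH0 H0_ne_top)) I)
  rw [derivedSeries_succ]
  refine (commutator_le_sup d4).trans ?_
  rw [derived_four p hn hπ hker, sup_bot_eq]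

/-- **`Out(PSL(d, K))` is solvable for `d ≥ 3`**, `K` a finite field. -/
theorem derived_le_conj_psl {K : Type*} [Field K] [Finite K] {d : ℕ} (hd : 3 ≤ d) {T : Type*}
    [Group T] (e : T ≃* Matrix.SpecialLinearGroup (Fin d) K ⧸
      center (Matrix.SpecialLinearGroup (Fin d) K)) :
    derivedSeries (MulAut T) 5 ≤ (MulAut.conj : T →* MulAut T).range := by
  obtain ⟨n, rfl⟩ : ∃ n, d = n + 1 := ⟨d - 1, by omega⟩
  refine derived_le_conj_of_surj (K := K) (n := n)
    (π := e.symm.toMonoidHom.comp (QuotientGroup.mk' _)) (by omega)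
    (e.symm.surjective.comp (QuotientGroup.mk'_surjective _)) ?_
  ext x
  rw [MonoidHom.mem_ker, MonoidHom.comp_apply]
  constructor
  · intro h
    have h1 : e.symm (QuotientGroup.mk' (center (GS (n + 1) K)) x) = 1 := h
    rw [map_eq_one_iff _ e.symm.injective] at h1
    exact (QuotientGroup.eq_one_iff x).mp h1
  · intro h
    have h1 : QuotientGroup.mk' (center (GS (n + 1) K)) x = 1 := (QuotientGroup.eq_one_iff x).mpr h
    rw [h1, map_one]

end Vale.Agent.P180.R2.H589.Bt
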