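import Vale.Agent.P180.R2.H589.Bt.Sml
import Vale.Agent.P180.R2.H589.Sch.Pair

/-!
P180: automorphisms of odd order of quotients `L` of `SL(d, K)`, `d ≥ 3`, by central subgroups are
induced by semilinear maps.
-/

set_option linter.all false

namespace Vale.Agent.P180.R2.H589.Bt

open Subgroup Module
open scoped commutatorElement
open Vale.Agent.P180.R2.H589.Sch

section

variable {G L : Type*} [Group G] [Group L]

/-- Homomorphisms of a perfect group which agree modulo the centre are equal. -/
theorem eq_of_central (hG : commutator G = ⊤) {f₁ f₂ : G →* L}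
    (h : ∀ x, (f₁ x)⁻¹ * f₂ x ∈ center L) : f₁ = f₂ := by
  have h1 : ∀ x, QuotientGroup.mk' (center L) (f₁ x) = QuotientGroup.mk' (center L) (f₂ x) := by
    intro x
    exact QuotientGroup.eq.mpr (h x)
  have hk : (QuotientGroup.mk' (center L)).ker ≤ center L := by
    rw [QuotientGroup.ker_mk']
  have h2 : ∀ x ∈ commutator G, f₁ x = f₂ x := by
    have h3 : commutator G ≤ MonoidHom.eqLocus f₁ f₂ := by
      rw [commutator_def, commutator_le]
      intro x _ y _
      change f₁ ⁅x, y⁆ = f₂ ⁅x, y⁆
      rw [map_commutatorElement, map_commutatorElement]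
      exact comm_congr hk (h1 x) (h1 y)
    exact h3
  ext x
  exact h2 x (by rw [hG]; exact mem_top x)

/-- The preimage of the centre. -/
theorem center_of_map {π : G →* L} (hG : commutator G = ⊤) (hk : π.ker ≤ center G) {x : G}
    (hx : π x ∈ center L) : x ∈ center G := by
  rw [mem_center_iff]
  intro y
  -- `y ↦ x y x⁻¹` and the identity agree modulo the kernel
  have h1 : (MulAut.conj x).toMonoidHom = MonoidHom.id G := by
    symm
    apply eq_of_central hG
    intro z
    apply hk
    rw [MonoidHom.mem_ker, map_mul, map_inv]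
    change (π z)⁻¹ * π (x * z * x⁻¹) = 1
    rw [map_mul, map_mul, map_inv, ← mem_center_iff.mp hx (π z), mul_inv_cancel_right,
      inv_mul_cancel]
  have h2 : x * y * x⁻¹ = y := congrArg (fun f : G →* G => f y) h1
  rw [mul_inv_eq_iff_eq_mul] at h2
  exact h2.symm

end

/-- **Automorphisms of odd order of quotients of `SL(d, K)` by central subgroups.** -/
theorem semilinear_of_odd {K : Type*} [Field K] [Finite K] (hK : 3 < Nat.card K) {n : ℕ}
    (hn : 2 ≤ n) {L : Type*} [Group L] {π : GS (n + 1) K →* L} (hπ : Function.Surjective π)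
    (hk : π.ker ≤ center (GS (n + 1) K)) {α : MulAut L} {m : ℕ} (hm : Odd m) (h : α ^ m = 1) :
    ∃ (σ : K ≃+* K) (g : (Fin (n + 1) → K) ≃+ (Fin (n + 1) → K)),
      (∀ (c : K) v, g (c • v) = σ c • g v) ∧
      ∀ x y : GS (n + 1) K, (∀ v, g (nat (n + 1) K x v) = nat (n + 1) K y (g v)) →
        α (π x) = π y := by
  -- perfectness
  obtain ⟨μ, h0, h2⟩ : ∃ a : K, a ≠ 0 ∧ a ^ 2 ≠ 1 := by
    obtain ⟨x, hx⟩ : IsCyclic Kˣ := by infer_instance
    have h1 : orderOf x = Nat.card Kˣ := orderOf_eq_card_of_forall_mem_zpowers hx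
    have h2 : Nat.card K = Nat.card Kˣ + 1 := Nat.card_eq_card_units_add_one K
    refine ⟨x, x.ne_zero, fun h => ?_⟩
    have h4 : x ^ 2 = 1 := Units.ext (by rw [Units.val_pow_eq_pow_val, h, Units.val_one])
    have h5 := orderOf_le_of_pow_eq_one (by norm_num) h4
    omega
  have hperf : commutator (GS (n + 1) K) = ⊤ := perfect_sl (by omega) h0 h2
  -- the quotient by the centre
  let πT : GS (n + 1) K →* L ⧸ center L := (QuotientGroup.mk' (center L)).comp π
  have hπT : Function.Surjective πT := (QuotientGroup.mk'_surjective _).comp hπ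
  have hkT : πT.ker = center (GS (n + 1) K) := by
    ext x
    rw [MonoidHom.mem_ker]
    constructor
    · intro hx
      exact center_of_map hperf hk ((QuotientGroup.eq_one_iff (π x)).mp hx)
    · intro hx
      refine (QuotientGroup.eq_one_iff (π x)).mpr ?_
      rw [mem_center_iff]
      intro y
      obtain ⟨y, rfl⟩ := hπ y
      rw [← map_mul, ← map_mul, mem_center_iff.mp hx y]
  have hcen : (center L).map α.toMonoidHom = center L := by
    ext t
    constructor
    · rintro ⟨z, hz, rfl⟩
      rw [mem_center_iff]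
      intro y
      obtain ⟨y, rfl⟩ := α.surjective y
      change α y * α z = α z * α y
      rw [← map_mul, ← map_mul, mem_center_iff.mp hz y]
    · intro ht
      refine ⟨α.symm t, ?_, α.apply_symm_apply t⟩
      change α.symm t ∈ center L
      rw [mem_center_iff]
      intro y
      apply α.injective
      rw [map_mul, map_mul, α.apply_symm_apply, mem_center_iff.mp ht]
  let αT : MulAut (L ⧸ center L) := QuotientGroup.congr (center L) (center L) α hcen
  have hαT : ∀ x, αT (QuotientGroup.mk' (center L) x) = QuotientGroup.mk' (center L) (α x) :=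
    fun x => rfl
  have hαTm : αT ^ m = 1 := by
    have h3 : ∀ (i : ℕ) x, (αT ^ i) (QuotientGroup.mk' (center L) x) =
        QuotientGroup.mk' (center L) ((α ^ i) x) := by
      intro i
      induction i with
      | zero => intro x; rfl
      | succ i ih => intro x; rw [pow_succ', pow_succ', MulAut.mul_apply, ih, hαT]; rfl
    ext t
    obtain ⟨x, rfl⟩ := QuotientGroup.mk'_surjective (center L) t
    rw [h3, h]
    rfl
  obtain ⟨σ, g, hg, hind⟩ := odd_mem_SL (π := πT) hn hπT hkT hm hαTm
  refine ⟨σ, g, hg, ?_⟩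
  -- conjugation by `g`
  choose Y hY using fun x => exists_conj (by omega) hg x
  have huniq : ∀ x y : GS (n + 1) K, (∀ v, g (nat (n + 1) K x v) = nat (n + 1) K y (g v)) →
      Y x = y := by
    intro x y hxy
    apply nat_injective
    apply LinearEquiv.ext
    intro w
    obtain ⟨v, rfl⟩ := g.surjective w
    rw [← hY, hxy]
  let f₁ : GS (n + 1) K →* L := α.toMonoidHom.comp π
  let f₂ : GS (n + 1) K →* L := π.comp
    { toFun := Y
      map_one' := huniq _ _ fun v => by rw [map_one]; rfl
      map_mul' := fun x z => huniq _ _ fun v => by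
        rw [nat_mul_apply, hY, hY, nat_mul_apply] }
  have heq : f₁ = f₂ := by
    apply eq_of_central hperf
    intro x
    have h3 : αT (πT x) = πT (Y x) := hind x (Y x) (hY x)
    exact QuotientGroup.eq.mp h3
  intro x y hxy
  rw [← huniq x y hxy]
  exact congrArg (fun f : GS (n + 1) K →* L => f x) heq

/-- The same for `SL(V)`, `V = K ^ d`, and conjugation in an overgroup. -/
theorem semilinear_conj {K : Type*} [Field K] [Finite K] (hK : 3 < Nat.card K) {d : ℕ}
    (hd : 3 ≤ d) {G : Type*} [Group G] {L : Subgroup G}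
    {π : _root_.SpecialLinearGroup K (Fin d → K) →* L} (hπ : Function.Surjective π)
    (hk : π.ker ≤ center _) {r : G} (hr : r ∈ normalizer (L : Set G)) {m : ℕ} (hm : Odd m)
    (h : r ^ m = 1) :
    ∃ (σ : K ≃+* K) (g : (Fin d → K) ≃+ (Fin d → K)),
      (∀ (c : K) v, g (c • v) = σ c • g v) ∧
      ∀ x y : _root_.SpecialLinearGroup K (Fin d → K), (∀ v, g (x v) = y (g v)) →
        r * (π x : G) * r⁻¹ = π y := by
  obtain ⟨n, rfl⟩ : ∃ n, d = n + 1 := ⟨d - 1, by omega⟩
  let ε : GS (n + 1) K ≃* _root_.SpecialLinearGroup K (Fin (n + 1) → K) :=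
    Matrix.SpecialLinearGroup.toLin'_equiv
  have hε : ∀ x v, (ε x) v = nat (n + 1) K x v := fun x v => rfl
  let α : MulAut L := normalizerMonoidHom L ⟨r, hr⟩
  have hα : ∀ x : L, ((α x : L) : G) = r * x * r⁻¹ := fun x => rfl
  have hαm : α ^ m = 1 := by
    have h1 : (⟨r, hr⟩ : normalizer (L : Set G)) ^ m = 1 := Subtype.ext h
    change (normalizerMonoidHom L ⟨r, hr⟩) ^ m = 1
    rw [← map_pow, h1, map_one]
  have hπ' : Function.Surjective (π.comp ε.toMonoidHom) := hπ.comp ε.surjective
  have hk' : (π.comp ε.toMonoidHom).ker ≤ center (GS (n + 1) K) := by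
    intro x hx
    have h1 : ε x ∈ center (_root_.SpecialLinearGroup K (Fin (n + 1) → K)) := hk hx
    rw [mem_center_iff] at h1 ⊢
    intro y
    apply ε.injective
    rw [map_mul, map_mul]
    exact h1 (ε y)
  obtain ⟨σ, g, hg, H⟩ := semilinear_of_odd hK (by omega) hπ' hk' hm hαm
  refine ⟨σ, g, hg, ?_⟩
  intro x y hxy
  have h2 := H (ε.symm x) (ε.symm y) (by
    intro v
    rw [← hε, ← hε, ε.apply_symm_apply, ε.apply_symm_apply]
    exact hxy v)
  have h3 : α (π x) = π y := by
    have h4 : π.comp ε.toMonoidHom (ε.symm x) = π x := congrArg π (ε.apply_symm_apply x)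
    have h5 : π.comp ε.toMonoidHom (ε.symm y) = π y := congrArg π (ε.apply_symm_apply y)
    rw [← h4, ← h5]
    exact h2
  rw [← h3]
  exact (hα (π x)).symm

end Vale.Agent.P180.R2.H589.Bt
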