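import Vale.Agent.P180.R2.H589.Sch.Rad

/-!
P180: subspaces and their unipotent radicals in `SL(N, K)`.
-/

set_option linter.all false

namespace Vale.Agent.P180.R2.H589.Bt

open Subgroup Module
open Vale.Agent.P180.R2.H589.Sch

variable {K : Type*} [Field K] {N : ℕ}

/-- The group of the elements which act trivially on `W` and on `V / W`. -/
def RW (W : Submodule K (Fin N → K)) : Subgroup (GS N K) where
  carrier := {g | (∀ w ∈ W, nat N K g w = w) ∧ ∀ x, nat N K g x - x ∈ W}
  one_mem' := by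
    refine ⟨fun w _ => ?_, fun x => ?_⟩
    · rw [map_one]; rfl
    · rw [map_one]
      have : (1 : (Fin N → K) ≃ₗ[K] (Fin N → K)) x - x = 0 := sub_self x
      rw [this]
      exact W.zero_mem
  mul_mem' := by
    rintro g h ⟨h1, h2⟩ ⟨h3, h4⟩
    refine ⟨fun w hw => ?_, fun x => ?_⟩
    · rw [map_mul, LinearEquiv.mul_apply, h3 w hw, h1 w hw]
    · rw [map_mul, LinearEquiv.mul_apply]
      have h5 := W.add_mem (h2 (nat N K h x)) (h4 x)
      rwa [sub_add_sub_cancel] at h5
  inv_mem' := by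
    rintro g ⟨h1, h2⟩
    have h3 : ∀ x, nat N K g (nat N K g⁻¹ x) = x := by
      intro x
      rw [map_inv]
      exact (nat N K g).apply_symm_apply x
    have h4 : ∀ x, nat N K g⁻¹ (nat N K g x) = x := by
      intro x
      rw [map_inv]
      exact (nat N K g).symm_apply_apply x
    refine ⟨fun w hw => ?_, fun x => ?_⟩
    · nth_rewrite 1 [← h1 w hw]
      exact h4 w
    · have h5 := W.neg_mem (h2 (nat N K g⁻¹ x))
      rw [h3, neg_sub] at h5
      exact h5

theorem mem_RW {W : Submodule K (Fin N → K)} {g : GS N K} :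
    g ∈ RW W ↔ (∀ w ∈ W, nat N K g w = w) ∧ ∀ x, nat N K g x - x ∈ W := Iff.rfl

/-- The stabiliser of `W`. -/
def PW (W : Submodule K (Fin N → K)) : Subgroup (GS N K) where
  carrier := {g | ∀ x, nat N K g x ∈ W ↔ x ∈ W}
  one_mem' := by
    intro x
    rw [map_one]
    exact Iff.rfl
  mul_mem' := by
    intro g h hg hh x
    rw [map_mul, LinearEquiv.mul_apply, hg, hh]
  inv_mem' := by
    intro g hg x
    rw [← hg (nat N K g⁻¹ x), map_inv]
    have : nat N K g ((nat N K g)⁻¹ x) = x := (nat N K g).apply_symm_apply x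
    rw [this]

theorem mem_PW {W : Submodule K (Fin N → K)} {g : GS N K} :
    g ∈ PW W ↔ ∀ x, nat N K g x ∈ W ↔ x ∈ W := Iff.rfl

theorem nat_inv_apply (g : GS N K) (x : Fin N → K) : nat N K g (nat N K g⁻¹ x) = x := by
  rw [map_inv]
  exact (nat N K g).apply_symm_apply x

theorem nat_inv_apply' (g : GS N K) (x : Fin N → K) : nat N K g⁻¹ (nat N K g x) = x := by
  rw [map_inv]
  exact (nat N K g).symm_apply_apply x

theorem nat_mul_apply (g h : GS N K) (x : Fin N → K) :
    nat N K (g * h) x = nat N K g (nat N K h x) := by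
  rw [map_mul, LinearEquiv.mul_apply]

theorem PW_of_le {W : Submodule K (Fin N → K)} {g : GS N K} (h : ∀ w ∈ W, nat N K g w ∈ W) :
    g ∈ PW W := by
  have h1 : W.map ((nat N K g : (Fin N → K) ≃ₗ[K] (Fin N → K)) : (Fin N → K) →ₗ[K] (Fin N → K)) = W := by
    apply Submodule.eq_of_le_of_finrank_eq
    · rintro _ ⟨w, hw, rfl⟩
      exact h w hw
    · exact LinearEquiv.finrank_map_eq _ _
  intro x
  constructor
  · intro hx
    rw [← h1] at hx
    obtain ⟨w, hw, hwx⟩ := hx
    rw [← (nat N K g).injective hwx]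
    exact hw
  · exact h x

theorem RW_le_PW (W : Submodule K (Fin N → K)) : RW W ≤ PW W := by
  intro g hg
  exact PW_of_le fun w hw => by rw [hg.1 w hw]; exact hw

theorem RW_conj {W : Submodule K (Fin N → K)} {g h : GS N K} (hg : g ∈ PW W) (hh : h ∈ RW W) :
    g * h * g⁻¹ ∈ RW W := by
  have hg' : g⁻¹ ∈ PW W := Subgroup.inv_mem _ hg
  refine ⟨fun w hw => ?_, fun x => ?_⟩
  · rw [nat_mul_apply, nat_mul_apply, hh.1 _ ((hg' w).2 hw), nat_inv_apply]
  · rw [nat_mul_apply, nat_mul_apply]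
    have h1 := (hg _).2 (hh.2 (nat N K g⁻¹ x))
    rwa [map_sub, nat_inv_apply] at h1

theorem RW_conj' {W : Submodule K (Fin N → K)} (g : GS N K) {h : GS N K} (hh : h ∈ RW W) :
    g * h * g⁻¹ ∈ RW (W.map ((nat N K g : (Fin N → K) ≃ₗ[K] (Fin N → K)) :
      (Fin N → K) →ₗ[K] (Fin N → K))) := by
  refine ⟨?_, fun x => ?_⟩
  · rintro _ ⟨w, hw, rfl⟩
    change nat N K (g * h * g⁻¹) (nat N K g w) = nat N K g w
    rw [nat_mul_apply, nat_mul_apply, nat_inv_apply', hh.1 w hw]
  · refine ⟨_, hh.2 (nat N K g⁻¹ x), ?_⟩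
    change nat N K g (nat N K h (nat N K g⁻¹ x) - nat N K g⁻¹ x) = _
    rw [map_sub, nat_inv_apply, nat_mul_apply, nat_mul_apply]

theorem RW_comm {W : Submodule K (Fin N → K)} {g h : GS N K} (hg : g ∈ RW W) (hh : h ∈ RW W) :
    g * h = h * g := by
  apply nat_injective
  apply LinearEquiv.ext
  intro x
  have key : ∀ {g h : GS N K}, g ∈ RW W → h ∈ RW W →
      nat N K (g * h) x = nat N K g x + (nat N K h x - x) := by
    intro g h hg hh
    have h1 := hg.1 _ (hh.2 x)
    rw [map_sub] at h1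
    rw [nat_mul_apply, ← h1]
    abel
  rw [key hg hh, key hh hg]
  abel

/-- transvections -/
theorem exists_tv {φ : Dual K (Fin N → K)} {a : Fin N → K} (h : φ a = 0) :
    ∃ g : GS N K, ∀ x, nat N K g x = x + φ x • a := by
  obtain ⟨g, hg⟩ := nat_tv (n := N) (K := K) (e := LinearEquiv.transvection h) (φ := φ) (a := a)
    ⟨h, fun x => rfl⟩
  refine ⟨g, fun x => ?_⟩
  rw [hg]
  rfl

theorem tv_mem_RW {W : Submodule K (Fin N → K)} {φ : Dual K (Fin N → K)} {a : Fin N → K}
    (hφ : ∀ w ∈ W, φ w = 0) (ha : a ∈ W) {g : GS N K} (hg : ∀ x, nat N K g x = x + φ x • a) :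
    g ∈ RW W := by
  refine ⟨fun w hw => ?_, fun x => ?_⟩
  · rw [hg, hφ w hw, zero_smul, add_zero]
  · rw [hg, add_sub_cancel_left]
    exact W.smul_mem _ ha

/-- separation of a vector from a subspace -/
theorem exists_sep {W : Submodule K (Fin N → K)} {v : Fin N → K} (hv : v ∉ W) :
    ∃ φ : Dual K (Fin N → K), (∀ w ∈ W, φ w = 0) ∧ φ v = 1 := by
  obtain ⟨φ, h1, h2⟩ := Submodule.exists_le_ker_of_notMem hv
  refine ⟨(φ v)⁻¹ • φ, fun w hw => ?_, ?_⟩
  · rw [LinearMap.smul_apply, h2 hw, smul_zero]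
  · rw [LinearMap.smul_apply, smul_eq_mul, inv_mul_cancel₀ h1]

section Char

variable {p : ℕ} [hp : Fact p.Prime] [CharP K p]

theorem RW_pow {W : Submodule K (Fin N → K)} {g : GS N K} (hg : g ∈ RW W) : g ^ p = 1 := by
  have h1 : ∀ (m : ℕ) x, nat N K (g ^ m) x = x + (m : K) • (nat N K g x - x) := by
    intro m
    induction m with
    | zero =>
      intro x
      rw [pow_zero, map_one, Nat.cast_zero, zero_smul, add_zero]
      rfl
    | succ m ih =>
      intro x
      have h2 := hg.1 _ (hg.2 x)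
      rw [pow_succ', nat_mul_apply, ih, map_add, map_smul, h2]
      push_cast
      module
  apply nat_injective
  apply LinearEquiv.ext
  intro x
  rw [h1, CharP.cast_eq_zero K p, zero_smul, add_zero, map_one]
  rfl

theorem isPGroup_RW (W : Submodule K (Fin N → K)) : IsPGroup p (RW W) := by
  rintro ⟨g, hg⟩
  exact ⟨1, Subtype.ext (by rw [pow_one]; exact RW_pow hg)⟩

omit [CharP K p] in
theorem mem_center_iff' {g : GS N K} :
    g ∈ center (GS N K) ↔ ∃ c : K, ∀ x, nat N K g x = c • x := by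
  constructor
  · intro h
    obtain ⟨r, _, hr⟩ := Matrix.SpecialLinearGroup.mem_center_iff.mp h
    refine ⟨r, fun x => ?_⟩
    rw [nat_apply, ← hr, Matrix.scalar_apply]
    funext i
    rw [Matrix.mulVec_diagonal]
    rfl
  · rintro ⟨c, hc⟩
    rw [mem_center_iff]
    intro h
    apply nat_injective
    apply LinearEquiv.ext
    intro x
    rw [nat_mul_apply, nat_mul_apply, hc, hc, map_smul]

theorem pow_eq_one_char {c : K} {m : ℕ} (h : c ^ p ^ m = 1) : c = 1 := by
  have h1 : (c - 1) ^ p ^ m = 0 := by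
    rw [sub_pow_char_pow, h, one_pow, sub_self]
  exact sub_eq_zero.mp (pow_eq_zero_iff (pow_ne_zero m hp.out.ne_zero) |>.mp h1)

theorem nat_pow_smul {g : GS N K} {c : K} (h : ∀ x, nat N K g x = c • x) (m : ℕ)
    (x : Fin N → K) : nat N K (g ^ m) x = c ^ m • x := by
  induction m with
  | zero => rw [pow_zero, pow_zero, map_one, one_smul]; rfl
  | succ m ih => rw [pow_succ', pow_succ', nat_mul_apply, ih, map_smul, h, smul_smul, mul_comm]

theorem center_pel {z : GS N K} (hz : z ∈ center (GS N K)) (h : Pel p z) : z = 1 := by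
  obtain ⟨c, hc⟩ := mem_center_iff'.mp hz
  obtain ⟨m, hm⟩ := h
  apply nat_injective
  apply LinearEquiv.ext
  intro x
  rw [hc, map_one]
  change c • x = x
  by_cases hx : x = 0
  · rw [hx, smul_zero]
  · have h1 := nat_pow_smul hc (p ^ m) x
    rw [hm, map_one] at h1
    have h2 : x = c ^ p ^ m • x := h1
    have h3 : c ^ p ^ m = 1 := by
      have h4 : (c ^ p ^ m - 1) • x = 0 := by rw [sub_smul, one_smul, ← h2, sub_self]
      exact sub_eq_zero.mp ((smul_eq_zero.mp h4).resolve_right hx)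
    rw [pow_eq_one_char h3, one_smul]

theorem not_dvd_card_center [Finite K] : ¬ p ∣ Nat.card (center (GS N K)) := by
  intro hd
  obtain ⟨w, hw⟩ := exists_prime_orderOf_dvd_card' p hd
  have h2 : (w : GS N K) = 1 := by
    refine center_pel (p := p) w.2 ⟨1, ?_⟩
    have h3 : w ^ p = 1 := by rw [← hw]; exact pow_orderOf_eq_one w
    rw [pow_one]
    exact congrArg Subtype.val h3
  have h3 : w = 1 := Subtype.ext h2
  rw [h3, orderOf_one] at hw
  exact hp.out.one_lt.ne hw

end Char

/-- The centraliser of the radical consists of scalars times elements of the radical. -/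
theorem centralizer_RW (p : ℕ) [Fact p.Prime] [CharP K p] {W : Submodule K (Fin N → K)} (h0 : W ≠ ⊥) (h1 : W ≠ ⊤) {g : GS N K}
    (hg : ∀ r ∈ RW W, g * r = r * g) : ∃ z ∈ center (GS N K), z⁻¹ * g ∈ RW W := by
  obtain ⟨v, hv⟩ : ∃ v, v ∉ W := by
    by_contra hc
    push Not at hc
    exact h1 (Submodule.eq_top_iff'.mpr hc)
  obtain ⟨a₀, ha₀, ha₀0⟩ := W.ne_bot_iff.mp h0
  -- the basic relation
  have key : ∀ (φ : Dual K (Fin N → K)) (a : Fin N → K), (∀ w ∈ W, φ w = 0) → a ∈ W →
      ∀ x, φ x • nat N K g a = φ (nat N K g x) • a := by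
    intro φ a hφ ha x
    obtain ⟨r, hr⟩ := exists_tv (hφ a ha)
    have h2 := congrArg (fun s => nat N K s x) (hg r (tv_mem_RW hφ ha hr))
    simp only [nat_mul_apply, hr, map_add, map_smul] at h2
    exact add_left_cancel h2
  obtain ⟨φ₀, hφ₀, hφ₀v⟩ := exists_sep hv
  set c := φ₀ (nat N K g v) with hc
  have hW : ∀ a ∈ W, nat N K g a = c • a := by
    intro a ha
    have h2 := key φ₀ a hφ₀ ha v
    rwa [hφ₀v, one_smul] at h2
  have hV : ∀ x, nat N K g x - c • x ∈ W := by
    intro x
    by_contra hx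
    obtain ⟨φ, hφ, hφx⟩ := exists_sep hx
    have h2 := key φ a₀ hφ ha₀ x
    rw [hW a₀ ha₀, smul_smul] at h2
    have h3 : (φ x * c - φ (nat N K g x)) • a₀ = 0 := by rw [sub_smul, h2, sub_self]
    have h4 := (smul_eq_zero.mp h3).resolve_right ha₀0
    rw [map_sub, map_smul, smul_eq_mul, mul_comm c] at hφx
    have h5 : φ (nat N K g x) - φ x * c = 0 := by
      rw [← neg_sub, h4, neg_zero]
    rw [h5] at hφx
    exact zero_ne_one hφx
  -- the scalar
  have hc0 : c ≠ 0 := by
    intro h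
    have h2 := hW a₀ ha₀
    rw [h, zero_smul] at h2
    exact ha₀0 ((nat N K g).map_eq_zero_iff.mp h2)
  have hpow : ∀ (m : ℕ) x, nat N K (g ^ m) x = c ^ m • x +
      ((m : K) * c ^ (m - 1)) • (nat N K g x - c • x) := by
    intro m
    induction m with
    | zero =>
      intro x
      rw [pow_zero, map_one, Nat.cast_zero, zero_mul, zero_smul, add_zero, pow_zero, one_smul]
      rfl
    | succ m ih =>
      intro x
      have h2 := hW _ (hV x)
      rw [pow_succ', nat_mul_apply, ih, map_add, map_smul, map_smul, h2, Nat.add_sub_cancel]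
      have h3 : nat N K g x = c • x + (nat N K g x - c • x) := by abel
      rcases Nat.eq_zero_or_pos m with hm | hm
      · subst hm
        simp
      · obtain ⟨k, rfl⟩ : ∃ k, m = k + 1 := ⟨m - 1, by omega⟩
        rw [Nat.add_sub_cancel]
        nth_rewrite 1 [h3]
        push_cast
        module
  have h2 : ∀ x, nat N K (g ^ p) x = c ^ p • x := by
    intro x
    rw [hpow, CharP.cast_eq_zero K p, zero_mul, zero_smul, add_zero]
  have h3 : c ^ N = 1 := by
    obtain ⟨r, hr1, hr2⟩ := Matrix.SpecialLinearGroup.mem_center_iff.mp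
      (mem_center_iff'.mpr ⟨c ^ p, h2⟩)
    rw [Fintype.card_fin] at hr1
    have h4 : r = c ^ p := by
      have h5 := h2 a₀
      rw [nat_apply, ← hr2, Matrix.scalar_apply] at h5
      have h6 : (Matrix.diagonal fun _ => r).mulVec a₀ = r • a₀ := by
        funext i
        rw [Matrix.mulVec_diagonal]
        rfl
      rw [h6] at h5
      have h7 : (r - c ^ p) • a₀ = 0 := by rw [sub_smul, h5, sub_self]
      exact sub_eq_zero.mp ((smul_eq_zero.mp h7).resolve_right ha₀0)
    rw [h4, ← pow_mul, mul_comm, pow_mul] at hr1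
    exact pow_eq_one_char (p := p) (m := 1) (by rw [pow_one]; exact hr1)
  let z : GS N K := ⟨Matrix.diagonal fun _ => c, by
    rw [Matrix.det_diagonal, Finset.prod_const, Finset.card_univ, Fintype.card_fin, h3]⟩
  have hz : ∀ x, nat N K z x = c • x := by
    intro x
    rw [nat_apply]
    change (Matrix.diagonal fun _ => c).mulVec x = c • x
    funext i
    rw [Matrix.mulVec_diagonal]
    rfl
  have hz' : ∀ x, nat N K z⁻¹ (c • x) = x := by
    intro x
    rw [← hz, nat_inv_apply']
  refine ⟨z, mem_center_iff'.mpr ⟨c, hz⟩, fun w hw => ?_, fun x => ?_⟩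
  · rw [nat_mul_apply, hW w hw, hz']
  · have h4 : nat N K (z⁻¹ * g) x - x = c⁻¹ • (nat N K g x - c • x) := by
      rw [nat_mul_apply, smul_sub, smul_smul, inv_mul_cancel₀ hc0, one_smul]
      have h5 := hz' (c⁻¹ • nat N K g x)
      rw [smul_smul, mul_inv_cancel₀ hc0, one_smul] at h5
      rw [h5]
    rw [h4]
    exact W.smul_mem _ (hV x)

end Vale.Agent.P180.R2.H589.Bt
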