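import Vale.Agent.P180.R2.H589.Bt.Fl
import Vale.Agent.P180.R2.H589.Sch.Gen
import Vale.Agent.P180.H768.Defs
import Mathlib.GroupTheory.Nilpotent

/-!
P180: `PSL(N, K)` is of local characteristic `p = char K` (Borel-Tits theorem for `SL(N, K)`).
-/

set_option linter.all false

namespace Vale.Agent.P180.R2.H589.Bt

open Subgroup Module
open Vale.Agent.P180.R2.H589.Sch

variable {K : Type*} [Field K] [Finite K] {N : ℕ} {p : ℕ} [hp : Fact p.Prime] [CharP K p]

omit hp in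
theorem dvd_card_K : p ∣ Nat.card K := by
  haveI := Fintype.ofFinite K
  rw [Nat.card_eq_fintype_card, ← CharP.cast_eq_zero_iff K p]
  exact Nat.cast_card_eq_zero K

omit [CharP K p] [Finite K] in
theorem isPGroup_iff {G : Type*} [Group G] {Q : Subgroup G} :
    IsPGroup p Q ↔ ∀ x ∈ Q, Pel p x := by
  constructor
  · intro h x hx
    obtain ⟨n, hn⟩ := h ⟨x, hx⟩
    exact ⟨n, congrArg Subtype.val hn⟩
  · rintro h ⟨x, hx⟩
    obtain ⟨n, hn⟩ := h x hx
    exact ⟨n, Subtype.ext hn⟩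

omit [CharP K p] [Finite K] in
theorem exists_fixed_gen {Y X : Type*} [Group Y] [Finite X] (hY : IsPGroup p Y) (ρ : Y → X → X)
    (h1 : ∀ x, ρ 1 x = x) (hm : ∀ y z x, ρ (y * z) x = ρ y (ρ z x)) (hc : p ∣ Nat.card X) {x₀ : X}
    (h0 : ∀ y, ρ y x₀ = x₀) : ∃ x, x ≠ x₀ ∧ ∀ y, ρ y x = x := by
  letI : MulAction Y X := { smul := ρ, one_smul := h1, mul_smul := hm }
  have h2 : x₀ ∈ MulAction.fixedPoints Y X := fun y => h0 y
  obtain ⟨x, hx, hx0⟩ := hY.exists_fixed_point_of_prime_dvd_card_of_fixed_point X hc h2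
  exact ⟨x, hx0.symm, fun y => hx y⟩

/-- A `p`-group fixes a nonzero vector. -/
theorem exists_fixed (hN : 0 < N) {Y : Subgroup (GS N K)} (hY : IsPGroup p Y) :
    ∃ v : Fin N → K, v ≠ 0 ∧ ∀ y ∈ Y, nat N K y v = v := by
  have hcard : p ∣ Nat.card (Fin N → K) := by
    rw [Module.natCard_eq_pow_finrank (K := K), Module.finrank_fin_fun]
    exact dvd_pow dvd_card_K hN.ne'
  obtain ⟨v, hv0, hv⟩ := exists_fixed_gen hY (fun (y : Y) (x : Fin N → K) => nat N K (y : GS N K) x)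
    (fun x => by
      change nat N K (1 : GS N K) x = x
      rw [map_one]
      rfl)
    (fun y z x => nat_mul_apply _ _ _) hcard (x₀ := 0) (fun y => map_zero _)
  exact ⟨v, hv0, fun y hy => hv ⟨y, hy⟩⟩

/-- A `p`-group which stabilises `W ≠ V` fixes a vector of `V / W`. -/
theorem exists_fixed_quot {W : Submodule K (Fin N → K)} (hW : W ≠ ⊤) {Y : Subgroup (GS N K)}
    (hY : IsPGroup p Y) (hYW : Y ≤ PW W) :
    ∃ v : Fin N → K, v ∉ W ∧ ∀ y ∈ Y, nat N K y v - v ∈ W := by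
  have hst : ∀ y : Y, W ≤ W.comap
      ((nat N K (y : GS N K) : (Fin N → K) ≃ₗ[K] (Fin N → K)) : (Fin N → K) →ₗ[K] (Fin N → K)) :=
    fun y x hx => ((hYW y.2) x).2 hx
  haveI : Finite ((Fin N → K) ⧸ W) :=
    Finite.of_surjective _ (Submodule.Quotient.mk_surjective W)
  have hcard : p ∣ Nat.card ((Fin N → K) ⧸ W) := by
    rw [Module.natCard_eq_pow_finrank (K := K)]
    refine dvd_pow dvd_card_K ?_
    intro h
    apply hW
    have h1 := Submodule.finrank_quotient_add_finrank W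
    rw [h, zero_add] at h1
    exact Submodule.eq_top_of_finrank_eq h1
  obtain ⟨v, hv0, hv⟩ := exists_fixed_gen hY
    (fun (y : Y) (q : (Fin N → K) ⧸ W) => W.mapQ W _ (hst y) q)
    (fun q => by
      obtain ⟨x, rfl⟩ := Submodule.Quotient.mk_surjective W q
      rw [Submodule.mapQ_apply]
      congr 1
      change nat N K (1 : GS N K) x = x
      rw [map_one]
      rfl)
    (fun y z q => by
      obtain ⟨x, rfl⟩ := Submodule.Quotient.mk_surjective W q
      rw [Submodule.mapQ_apply, Submodule.mapQ_apply, Submodule.mapQ_apply]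
      congr 1
      exact nat_mul_apply _ _ _) hcard (x₀ := 0) (fun y => map_zero _)
  obtain ⟨x, rfl⟩ := Submodule.Quotient.mk_surjective W v
  refine ⟨x, fun hx => hv0 ((Submodule.Quotient.mk_eq_zero W).mpr hx), fun y hy => ?_⟩
  have h1 := hv ⟨y, hy⟩
  rw [Submodule.mapQ_apply] at h1
  exact (Submodule.Quotient.eq W).mp h1

section T

variable {T : Type*} [Group T] {π : GS N K →* T}

/-- `Q` is radical: it contains the normal `p`-subgroups of its normaliser. -/
def IsRad (p : ℕ) {G : Type*} [Group G] (Q : Subgroup G) : Prop :=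
  IsPGroup p Q ∧ ∀ P : Subgroup G, IsPGroup p P → P ≤ normalizer (Q : Set G) →
    (∀ g ∈ normalizer (Q : Set G), ∀ x ∈ P, g * x * g⁻¹ ∈ P) → P ≤ Q

omit [Finite K] in
theorem ker_le (hker : π.ker = center (GS N K)) : π.ker ≤ center (GS N K) := hker.le

theorem not_dvd_ker (hker : π.ker = center (GS N K)) : ¬ p ∣ Nat.card π.ker := by
  rw [hker]
  exact not_dvd_card_center

/-- the lift of a `p`-subgroup -/
def Lf (hker : π.ker = center (GS N K)) {Q : Subgroup T} (hQ : IsPGroup p Q) :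
    Subgroup (GS N K) where
  carrier := {g | Pel p g ∧ π g ∈ Q}
  one_mem' := ⟨pel_one, by rw [map_one]; exact Q.one_mem⟩
  mul_mem' := by
    rintro g h ⟨h1, h2⟩ ⟨h3, h4⟩
    refine ⟨pel_mul (ker_le hker) (not_dvd_ker hker) hQ h1 h3 h2 h4, ?_⟩
    rw [map_mul]
    exact Q.mul_mem h2 h4
  inv_mem' := by
    rintro g ⟨h1, h2⟩
    refine ⟨h1.inv, ?_⟩
    rw [map_inv]
    exact Q.inv_mem h2

theorem mem_Lf (hker : π.ker = center (GS N K)) {Q : Subgroup T} (hQ : IsPGroup p Q)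
    {g : GS N K} : g ∈ Lf hker hQ ↔ Pel p g ∧ π g ∈ Q := Iff.rfl

theorem isPGroup_Lf (hker : π.ker = center (GS N K)) {Q : Subgroup T} (hQ : IsPGroup p Q) :
    IsPGroup p (Lf hker hQ) := isPGroup_iff.mpr fun x hx => hx.1

/-- the fixed space -/
def Fx (Y : Subgroup (GS N K)) : Submodule K (Fin N → K) where
  carrier := {x | ∀ y ∈ Y, nat N K y x = x}
  zero_mem' := fun y _ => map_zero _
  add_mem' := by
    intro a b ha hb y hy
    rw [map_add, ha y hy, hb y hy]
  smul_mem' := by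
    intro c a ha y hy
    rw [map_smul, ha y hy]

omit [Finite K] in
theorem mem_Fx {Y : Subgroup (GS N K)} {x : Fin N → K} :
    x ∈ Fx Y ↔ ∀ y ∈ Y, nat N K y x = x := Iff.rfl

omit [Finite K] in
/-- Elements which normalise `Y` stabilise the fixed space. -/
theorem mem_PW_Fx {Y : Subgroup (GS N K)} {g : GS N K} (hg : ∀ y ∈ Y, g⁻¹ * y * g ∈ Y) :
    g ∈ PW (Fx Y) := by
  refine PW_of_le fun w hw y hy => ?_
  have h1 := hw _ (hg y hy)
  rw [nat_mul_apply, nat_mul_apply] at h1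
  have h2 := congrArg (nat N K g) h1
  rwa [nat_inv_apply] at h2

theorem lf_conj (hker : π.ker = center (GS N K)) {Q : Subgroup T} (hQ : IsPGroup p Q)
    {g : GS N K} (hg : π g ∈ normalizer (Q : Set T)) {y : GS N K} (hy : y ∈ Lf hker hQ) :
    g * y * g⁻¹ ∈ Lf hker hQ := by
  refine ⟨hy.1.conj g, ?_⟩
  rw [map_mul, map_mul, map_inv]
  exact (mem_normalizer_iff.mp hg _).mp hy.2

theorem lf_conj' (hker : π.ker = center (GS N K)) {Q : Subgroup T} (hQ : IsPGroup p Q)
    {g : GS N K} (hg : π g ∈ normalizer (Q : Set T)) {y : GS N K} (hy : y ∈ Lf hker hQ) :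
    g⁻¹ * y * g ∈ Lf hker hQ := by
  have h1 := lf_conj hker hQ (g := g⁻¹) (by rw [map_inv]; exact Subgroup.inv_mem _ hg) hy
  rwa [inv_inv] at h1

theorem conj_mem_PW (hker : π.ker = center (GS N K)) {Q : Subgroup T} (hQ : IsPGroup p Q)
    {g : GS N K} (hg : π g ∈ normalizer (Q : Set T)) : g ∈ PW (Fx (Lf hker hQ)) :=
  mem_PW_Fx fun y hy => lf_conj' hker hQ hg hy

theorem Fx_ne_bot (hN : 0 < N) (hker : π.ker = center (GS N K)) {Q : Subgroup T}
    (hQ : IsPGroup p Q) : Fx (Lf hker hQ) ≠ ⊥ := by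
  obtain ⟨v, hv, h⟩ := exists_fixed hN (isPGroup_Lf hker hQ)
  intro h0
  have h1 : v ∈ Fx (Lf hker hQ) := h
  rw [h0, Submodule.mem_bot] at h1
  exact hv h1

theorem Fx_ne_top (hπ : Function.Surjective π) (hker : π.ker = center (GS N K)) {Q : Subgroup T}
    (hQ : IsPGroup p Q) (hQ0 : Q ≠ ⊥) : Fx (Lf hker hQ) ≠ ⊤ := by
  intro h0
  obtain ⟨t, ht1⟩ := Q.ne_bot_iff_exists_ne_one.mp hQ0
  obtain ⟨g, hg, hgt⟩ := exists_pel (p := p) (not_dvd_ker hker) (isPGroup_iff.mp hQ t t.2) (hπ t)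
  have h1 : g = 1 := by
    apply nat_injective
    apply LinearEquiv.ext
    intro x
    have h2 : x ∈ Fx (Lf hker hQ) := by rw [h0]; exact Submodule.mem_top
    rw [map_one]
    exact h2 g ⟨hg, by rw [hgt]; exact t.2⟩
  apply ht1
  apply Subtype.ext
  rw [← hgt, h1, map_one]
  rfl

end T

section Rad

variable {T : Type*} [Group T] [Finite T]

omit [CharP K p] in
/-- A radical subgroup contains the `p`-subgroups which are normalised by its normaliser. -/
theorem le_of_rad {Q Y : Subgroup T} (hQ : IsRad p Q) (hY : IsPGroup p Y)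
    (hn : normalizer (Q : Set T) ≤ normalizer (Y : Set T)) : Y ≤ Q := by
  by_contra hcon
  have hQN : Q ≤ normalizer (Q : Set T) := le_normalizer
  have hQY : Q ≤ normalizer (Y : Set T) := hQN.trans hn
  have hXp : IsPGroup p (Y ⊔ Q : Subgroup T) := IsPGroup.to_sup_of_normal_left' hY hQ.1 hQY
  set X : Subgroup T := Y ⊔ Q with hX
  have hconj : ∀ {q y : T}, q ∈ normalizer (Y : Set T) → y ∈ Y → q * y * q⁻¹ ∈ Y :=
    fun hq hy => (mem_normalizer_iff.mp hq _).mp hy
  -- elements of the product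
  let S : Subgroup T :=
    { carrier := {x | ∃ y ∈ Y, ∃ q ∈ Q, x = y * q}
      one_mem' := ⟨1, Y.one_mem, 1, Q.one_mem, (mul_one 1).symm⟩
      mul_mem' := by
        rintro _ _ ⟨y, hy, q, hq, rfl⟩ ⟨y', hy', q', hq', rfl⟩
        exact ⟨y * (q * y' * q⁻¹), Y.mul_mem hy (hconj (hQY hq) hy'), q * q', Q.mul_mem hq hq',
          by group⟩
      inv_mem' := by
        rintro _ ⟨y, hy, q, hq, rfl⟩
        refine ⟨q⁻¹ * y⁻¹ * q⁻¹⁻¹, hconj (hQY (Q.inv_mem hq)) (Y.inv_mem hy), q⁻¹, Q.inv_mem hq,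
          by group⟩ }
  have hXS : X ≤ S := sup_le (fun y hy => ⟨y, hy, 1, Q.one_mem, (mul_one y).symm⟩)
    (fun q hq => ⟨1, Y.one_mem, q, hq, (one_mul q).symm⟩)
  have hlt : Q.subgroupOf X < ⊤ := by
    rw [lt_top_iff_ne_top]
    intro h
    rw [subgroupOf_eq_top] at h
    exact hcon (le_sup_left.trans h)
  haveI := hXp.isNilpotent
  have hnc := Group.normalizerCondition_of_isNilpotent (Q.subgroupOf X) hlt
  obtain ⟨x, hx, hxQ⟩ := SetLike.exists_of_lt hnc
  have hQX : Q ≤ X := le_sup_right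
  have hxN : (x : T) ∈ normalizer (Q : Set T) := by
    rw [mem_normalizer_iff]
    intro h
    rw [mem_normalizer_iff] at hx
    constructor
    · intro hh
      exact (hx ⟨h, hQX hh⟩).mp hh
    · intro hh
      have h1 : h ∈ X := by
        have h2 := X.mul_mem (X.mul_mem (X.inv_mem x.2) (hQX hh)) x.2
        have h3 : (x : T)⁻¹ * ((x : T) * h * (x : T)⁻¹) * x = h := by group
        rwa [h3] at h2
      exact (hx ⟨h, h1⟩).mpr hh
  obtain ⟨y, hy, q, hq, hxyq⟩ := hXS x.2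
  have hyN : y ∈ normalizer (Q : Set T) := by
    have h1 : y = x * q⁻¹ := by rw [hxyq]; group
    rw [h1]
    exact Subgroup.mul_mem _ hxN (Subgroup.inv_mem _ (hQN hq))
  have hle : Y ⊓ normalizer (Q : Set T) ≤ Q := by
    refine hQ.2 _ (hY.to_le inf_le_left) inf_le_right ?_
    rintro g hg z ⟨hz, hz'⟩
    exact ⟨hconj (hn hg) hz, Subgroup.mul_mem _ (Subgroup.mul_mem _ hg hz') (Subgroup.inv_mem _ hg)⟩
  apply hxQ
  change (x : T) ∈ Q
  rw [hxyq]
  exact Q.mul_mem (hle ⟨hy, hyN⟩) hq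

end Rad

section Main

variable {T : Type*} [Group T] {π : GS N K →* T}

theorem map_RW_le (hπ : Function.Surjective π) (hker : π.ker = center (GS N K)) {Q : Subgroup T}
    (hQ : IsRad p Q) : (RW (Fx (Lf hker hQ.1))).map π ≤ Q := by
  haveI : Finite T := Finite.of_surjective π hπ
  refine le_of_rad hQ ((isPGroup_RW (p := p) _).map π) ?_
  intro t ht
  obtain ⟨g, rfl⟩ := hπ t
  have h1 : ∀ {g : GS N K}, π g ∈ normalizer (Q : Set T) → ∀ s ∈ (RW (Fx (Lf hker hQ.1))).map π,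
      π g * s * (π g)⁻¹ ∈ (RW (Fx (Lf hker hQ.1))).map π := by
    rintro g hg _ ⟨r, hr, rfl⟩
    exact ⟨g * r * g⁻¹, RW_conj (conj_mem_PW hker hQ.1 hg) hr, by rw [map_mul, map_mul, map_inv]⟩
  rw [mem_normalizer_iff]
  intro s
  constructor
  · exact h1 ht s
  · intro hs
    have h2 := h1 (g := g⁻¹) (by rw [map_inv]; exact Subgroup.inv_mem _ ht) _ hs
    have h3 : π g⁻¹ * (π g * s * (π g)⁻¹) * (π g⁻¹)⁻¹ = s := by rw [map_inv]; group
    rwa [h3] at h2

theorem comm_of_central {g r : GS N K} (hr : Pel p r) (h : g * r * g⁻¹ * r⁻¹ ∈ center (GS N K)) :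
    g * r = r * g := by
  have h1 : g * r * g⁻¹ * r⁻¹ = 1 := by
    refine center_pel (p := p) h ?_
    obtain ⟨m, hm⟩ := hr
    refine ⟨m, ?_⟩
    have h2 : g * r * g⁻¹ = (g * r * g⁻¹ * r⁻¹) * r := by group
    have h3 : (g * r * g⁻¹) ^ p ^ m = 1 := by
      rw [conj_pow, hm, mul_one, mul_inv_cancel]
    have h4 : Commute (g * r * g⁻¹ * r⁻¹) r := (mem_center_iff.mp h r).symm
    rw [h2, h4.mul_pow, hm, mul_one] at h3
    exact h3
  have h5 : g * r * g⁻¹ * r⁻¹ * r * g = r * g := by rw [h1, one_mul]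
  have h6 : g * r * g⁻¹ * r⁻¹ * r * g = g * r := by group
  rw [← h6, h5]

include hp in
/-- The centraliser of the image of the radical. -/
theorem centralizer_map_RW (hπ : Function.Surjective π) (hker : π.ker = center (GS N K))
    {W : Submodule K (Fin N → K)} (h0 : W ≠ ⊥) (h1 : W ≠ ⊤) :
    centralizer (((RW W).map π : Subgroup T) : Set T) ≤ (RW W).map π := by
  intro t ht
  obtain ⟨g, rfl⟩ := hπ t
  rw [mem_centralizer_iff] at ht
  obtain ⟨z, hz, hzg⟩ := centralizer_RW p h0 h1 (g := g) (fun r hr => by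
    refine comm_of_central (p := p) ⟨1, by rw [pow_one]; exact RW_pow hr⟩ ?_
    rw [← hker, MonoidHom.mem_ker, map_mul, map_mul, map_mul, map_inv, map_inv,
      ← ht (π r) ⟨r, hr, rfl⟩]
    group)
  refine ⟨z⁻¹ * g, hzg, ?_⟩
  rw [← hker] at hz
  rw [map_mul, map_inv, MonoidHom.mem_ker.mp hz, inv_one, one_mul]

/-- **Borel-Tits theorem for `PSL(N, K)`.** -/
theorem centralizer_le_of_rad (hN : 0 < N) (hπ : Function.Surjective π)
    (hker : π.ker = center (GS N K)) {Q : Subgroup T} (hQ : IsRad p Q) (hQ0 : Q ≠ ⊥) :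
    centralizer (Q : Set T) ≤ Q := by
  have h1 := map_RW_le hπ hker hQ
  refine le_trans ?_ ((centralizer_map_RW (p := p) hπ hker (Fx_ne_bot hN hker hQ.1)
    (Fx_ne_top hπ hker hQ.1 hQ0)).trans h1)
  exact centralizer_le h1

end Main

/-- `PSL(N, K)` is of local characteristic `p = char K` up to any order. -/
theorem isLocalChar {T : Type} [Group T] {π : GS N K →* T} (hN : 0 < N)
    (hπ : Function.Surjective π) (hker : π.ker = center (GS N K)) (n : ℕ) :
    IsLocalChar p n T := fun _ hQ0 hQ _ hrad => centralizer_le_of_rad hN hπ hker ⟨hQ, hrad⟩ hQ0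

end Vale.Agent.P180.R2.H589.Bt
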