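import Vale.Agent.P180.R2.H589.Bt.Sem
import Mathlib.GroupTheory.Solvable

/-!
P180: the outer automorphism group of `PSL(n + 1, K)`, `n ≥ 2`, is solvable.
-/

set_option linter.all false

namespace Vale.Agent.P180.R2.H589.Bt

open Subgroup Module
open scoped commutatorElement
open Vale.Agent.P180.R2.H589.Sch

section Gen

variable {T : Type*} [Group T]

/-- Automorphisms which centralise a self-centralising abelian subgroup commute on its
normaliser. -/
theorem comm_on_normalizer {R : Subgroup T} (hR : ∀ x ∈ R, ∀ y ∈ R, x * y = y * x)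
    (hC : centralizer (R : Set T) ≤ R) {α β : MulAut T} (hα : ∀ r ∈ R, α r = r)
    (hβ : ∀ r ∈ R, β r = r) {g : T} (hg : g ∈ normalizer (R : Set T)) : α (β g) = β (α g) := by
  have key : ∀ {α : MulAut T}, (∀ r ∈ R, α r = r) → α g * g⁻¹ ∈ R := by
    intro α hα
    apply hC
    rw [mem_centralizer_iff]
    intro r hr
    have h1 : g⁻¹ * r * g⁻¹⁻¹ ∈ R := (mem_normalizer_iff.mp (Subgroup.inv_mem _ hg) r).mp hr
    rw [inv_inv] at h1
    have h2 : α (g * (g⁻¹ * r * g) * g⁻¹) = r := by
      have h3 : g * (g⁻¹ * r * g) * g⁻¹ = r := by group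
      rw [h3, hα r hr]
    rw [map_mul, map_mul, map_inv, hα _ h1] at h2
    have h4 : α g * (g⁻¹ * r * g) = r * α g := by
      nth_rewrite 2 [← h2]
      group
    calc r * (α g * g⁻¹) = (r * α g) * g⁻¹ := by group
      _ = (α g * (g⁻¹ * r * g)) * g⁻¹ := by rw [h4]
      _ = α g * g⁻¹ * r := by group
  have h1 := key hα
  have h2 := key hβ
  have e1 : α (β g) = (β g * g⁻¹) * α g := by
    have h3 := hα _ h2
    rw [map_mul, map_inv] at h3
    rw [← h3]
    group
  have e2 : β (α g) = (α g * g⁻¹) * β g := by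
    have h3 := hβ _ h1
    rw [map_mul, map_inv] at h3
    rw [← h3]
    group
  rw [e1, e2]
  calc β g * g⁻¹ * α g = (β g * g⁻¹) * (α g * g⁻¹) * g := by group
    _ = (α g * g⁻¹) * (β g * g⁻¹) * g := by rw [hR _ h2 _ h1]
    _ = _ := by group

/-- Commutators modulo a normal subgroup. -/
theorem commutator_le_sup {G : Type*} [Group G] {I X A : Subgroup G} [hI : I.Normal]
    (h : X ≤ I ⊔ A) : ⁅X, X⁆ ≤ I ⊔ ⁅A, A⁆ := by
  have h1 : X.map (QuotientGroup.mk' I) ≤ A.map (QuotientGroup.mk' I) := by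
    refine (map_mono h).trans ?_
    rw [Subgroup.map_sup]
    refine sup_le ?_ le_rfl
    rintro _ ⟨x, hx, rfl⟩
    have : QuotientGroup.mk' I x = 1 := (QuotientGroup.eq_one_iff x).mpr hx
    rw [this]
    exact Subgroup.one_mem _
  have h2 : ⁅X, X⁆.map (QuotientGroup.mk' I) ≤ ⁅A, A⁆.map (QuotientGroup.mk' I) := by
    rw [map_commutator, map_commutator]
    exact commutator_mono h1 h1
  have h3 := (map_le_iff_le_comap.mp h2)
  rwa [comap_map_eq, QuotientGroup.ker_mk', sup_comm] at h3

instance inn_normal : (MulAut.conj : T →* MulAut T).range.Normal := by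
  refine ⟨?_⟩
  rintro _ ⟨t, rfl⟩ α
  refine ⟨α t, ?_⟩
  ext x
  rw [MulAut.mul_apply, MulAut.mul_apply, MulAut.conj_apply, MulAut.conj_apply, map_mul, map_mul,
    map_inv]
  have : α (α⁻¹ x) = x := α.apply_symm_apply x
  rw [this]

end Gen

variable {K : Type*} [Field K] {n : ℕ} {T : Type*} [Group T] {π : GS (n + 1) K →* T}

/-- the elements of the radical -/
noncomputable def ct (π : GS (n + 1) K →* T) (a : Fin n → K) : T := π (cl a)

theorem ct_add (a b : Fin n → K) : ct π (a + b) = ct π a * ct π b := by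
  rw [ct, cl_add, map_mul]
  rfl

theorem ct_mem (a : Fin n → K) : ct π a ∈ RT π (H0 n K) := ⟨cl a, cl_mem a, rfl⟩

theorem exists_ct {t : T} (h : t ∈ RT π (H0 n K)) : ∃ a, ct π a = t := by
  obtain ⟨g, hg, rfl⟩ := h
  obtain ⟨a, rfl⟩ := exists_cl_of_mem hg
  exact ⟨a, rfl⟩

theorem ct_injective (p : ℕ) [Fact p.Prime] [CharP K p] (hker : π.ker = center (GS (n + 1) K)) :
    Function.Injective (ct π) := by
  intro a b h
  have h1 : (cl a)⁻¹ * cl b = 1 := by
    have h2 : (cl a)⁻¹ * cl b ∈ RW (H0 n K) :=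
      Subgroup.mul_mem _ (Subgroup.inv_mem _ (cl_mem a)) (cl_mem b)
    refine center_pel (p := p) ?_ ⟨1, by rw [pow_one]; exact RW_pow h2⟩
    rw [← hker, MonoidHom.mem_ker, map_mul, map_inv]
    have h3 : π (cl a) = π (cl b) := h
    rw [h3, inv_mul_cancel]
  exact cl_injective (inv_mul_eq_one.mp h1)

/-- automorphisms which stabilise the radical -/
def AR (π : GS (n + 1) K →* T) : Subgroup (MulAut T) where
  carrier := {α | ∀ t, α t ∈ RT π (H0 n K) ↔ t ∈ RT π (H0 n K)}
  one_mem' := fun t => Iff.rfl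
  mul_mem' := by
    intro α β hα hβ t
    rw [MulAut.mul_apply, hα, hβ]
  inv_mem' := by
    intro α hα t
    rw [← hα (α⁻¹ t)]
    have : α (α⁻¹ t) = t := α.apply_symm_apply t
    rw [this]

theorem exists_act (p : ℕ) [Fact p.Prime] [CharP K p] (hker : π.ker = center (GS (n + 1) K))
    {α : MulAut T} (hα : α ∈ AR π) :
    ∃ s : (Fin n → K) ≃+ (Fin n → K), ∀ a, α (ct π a) = ct π (s a) := by
  have hinj := ct_injective p hker
  choose f hf using fun a => exists_ct ((hα (ct π a)).2 (ct_mem a))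
  choose f' hf' using fun a => exists_ct (((AR π).inv_mem hα (ct π a)).2 (ct_mem a))
  refine ⟨AddEquiv.mk' ⟨f, f', fun a => ?_, fun a => ?_⟩ fun a b => ?_, fun a => (hf a).symm⟩
  · apply hinj
    rw [hf', hf]
    exact α.symm_apply_apply _
  · apply hinj
    rw [hf, hf']
    exact α.apply_symm_apply _
  · apply hinj
    change ct π (f (a + b)) = ct π (f a + f b)
    rw [hf, ct_add, ct_add, map_mul, hf, hf]

theorem act_em (hn : 1 ≤ n) (B : GS n K) : ∃ t : T, ∀ a, t * ct π a * t⁻¹ = ct π (nat n K B a) := by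
  obtain ⟨g, hg⟩ := exists_em hn B
  refine ⟨π g, fun a => ?_⟩
  have h1 : g * cl a = cl (nat n K B a) * g := by
    apply nat_injective
    apply LinearEquiv.ext
    intro x
    rw [nat_mul_apply, nat_mul_apply, cl_apply, cl_apply, map_add, map_smul, hg x, hg (ex a)]
    rfl
  rw [ct, ← map_mul, h1, map_mul, mul_inv_cancel_right]
  rfl

theorem act_lin {g : GS (n + 1) K} (hg : g ∈ PW (H0 n K)) :
    ∃ u : (Fin n → K) → (Fin n → K), (∀ (c : K) a, u (c • a) = c • u a) ∧
      ∀ a, π g * ct π a * (π g)⁻¹ = ct π (u a) := by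
  have hg' : g⁻¹ ∈ PW (H0 n K) := Subgroup.inv_mem _ hg
  let μ : K := nat (n + 1) K g⁻¹ (Pi.single 0 1) 0
  have hμ : ∀ x, nat (n + 1) K g⁻¹ x 0 = x 0 * μ := by
    intro x
    have h2 : x - x 0 • Pi.single 0 1 ∈ H0 n K := by
      rw [mem_H0, Pi.sub_apply, Pi.smul_apply, Pi.single_eq_same, smul_eq_mul, mul_one, sub_self]
    have h3 := mem_H0.mp ((hg' _).2 h2)
    rw [map_sub, map_smul, Pi.sub_apply, Pi.smul_apply, smul_eq_mul, sub_eq_zero] at h3
    exact h3
  refine ⟨fun a => μ • tl (nat (n + 1) K g (ex a)), fun c a => ?_, fun a => ?_⟩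
  · change μ • tl (nat (n + 1) K g (ex (c • a))) = c • (μ • tl (nat (n + 1) K g (ex a)))
    rw [ex_smul, map_smul, tl_smul, smul_smul, smul_smul, mul_comm]
  · have h1 : g * cl a * g⁻¹ = cl (μ • tl (nat (n + 1) K g (ex a))) := by
      apply nat_injective
      apply LinearEquiv.ext
      intro x
      rw [nat_mul_apply, nat_mul_apply, cl_apply, cl_apply, map_add, map_smul, nat_inv_apply,
        ex_smul, ex_tl (mem_H0.mp ((hg _).2 (ex_mem a))), hμ, smul_smul]
    rw [ct, ← map_inv, ← map_mul, ← map_mul, h1]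
    rfl

theorem scalar_of_act [Finite K] (p : ℕ) [Fact p.Prime] [CharP K p] (hn : 2 ≤ n)
    (hπ : Function.Surjective π) (hker : π.ker = center (GS (n + 1) K))
    {α : MulAut T} (hα : α ∈ AR π) {s : (Fin n → K) ≃+ (Fin n → K)}
    (hs : ∀ a, α (ct π a) = ct π (s a)) (c : K) : ∃ c' : K, ∀ a, s (c • a) = c' • s a := by
  have hinj := ct_injective p hker
  obtain ⟨c', hc'⟩ := scalar_of_comm hn (s := fun a => s (c • s.symm a))
    (fun a b => by rw [map_add, smul_add, map_add]) (fun B b => by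
      obtain ⟨t, ht⟩ := act_em (π := π) (by omega) B
      set t' := α.symm t with ht'
      have hαt : α t' = t := α.apply_symm_apply t
      have hnor : t' ∈ normalizer ((RT π (H0 n K) : Subgroup T) : Set T) := by
        rw [mem_normalizer_iff]
        intro r
        rw [← hα (t' * r * t'⁻¹), map_mul, map_mul, map_inv, hαt, ← hα r]
        constructor
        · intro h
          obtain ⟨a, ha⟩ := exists_ct h
          rw [← ha, ht]
          exact ct_mem _
        · intro h
          obtain ⟨a, ha⟩ := exists_ct h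
          have h1 : α r = t⁻¹ * ct π a * t := by rw [ha]; group
          have h2 := ht (nat n K B⁻¹ a)
          rw [nat_inv_apply] at h2
          rw [h1, ← h2]
          have h3 : t⁻¹ * (t * ct π (nat n K B⁻¹ a) * t⁻¹) * t = ct π (nat n K B⁻¹ a) := by group
          rw [h3]
          exact ct_mem _
      obtain ⟨g', hg'⟩ := hπ t'
      rw [← hg', mem_normalizer_RT (p := p) hker (H0_ne_bot (by omega))] at hnor
      obtain ⟨u, hu1, hu2⟩ := act_lin (π := π) hnor
      have h3 : ∀ a, nat n K B (s a) = s (u a) := by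
        intro a
        apply hinj
        rw [← ht, ← hs, ← hs, ← hu2, hg', map_mul, map_mul, map_inv, hαt]
      change s (c • s.symm (nat n K B b)) = nat n K B (s (c • s.symm b))
      have h4 : s.symm (nat n K B b) = u (s.symm b) := by
        rw [AddEquiv.symm_apply_eq, ← h3, s.apply_symm_apply]
      rw [h4, ← hu1, h3])
  refine ⟨c', fun a => ?_⟩
  have h1 := hc' (s a)
  simp only [s.symm_apply_apply] at h1
  exact h1

end Vale.Agent.P180.R2.H589.Bt
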