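import Vale.Agent.P180.R2.H589.Bt.Out

/-!
P180: the outer automorphism group of `PSL(n + 1, K)`, `n ≥ 2`, is solvable.
-/

set_option linter.all false

namespace Vale.Agent.P180.R2.H589.Bt

open Subgroup Module
open scoped commutatorElement
open Vale.Agent.P180.R2.H589.Sch

variable {K : Type*} [Field K] {n : ℕ} {T : Type*} [Group T] {π : GS (n + 1) K →* T}

/-- automorphisms which act linearly on the radical -/
def AL (π : GS (n + 1) K →* T) : Subgroup (MulAut T) where
  carrier := {α | ∃ s : (Fin n → K) ≃ₗ[K] (Fin n → K), ∀ a, α (ct π a) = ct π (s a)}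
  one_mem' := ⟨1, fun a => rfl⟩
  mul_mem' := by
    rintro α β ⟨s, hs⟩ ⟨t, ht⟩
    refine ⟨s * t, fun a => ?_⟩
    rw [MulAut.mul_apply, ht, hs]
    rfl
  inv_mem' := by
    rintro α ⟨s, hs⟩
    refine ⟨s⁻¹, fun a => ?_⟩
    apply α.injective
    have h1 : α (α⁻¹ (ct π a)) = ct π a := α.apply_symm_apply _
    rw [h1, hs]
    have h2 : s (s⁻¹ a) = a := s.apply_symm_apply a
    rw [h2]

theorem derived_one [Finite K] (p : ℕ) [Fact p.Prime] [CharP K p] (hn : 2 ≤ n)
    (hπ : Function.Surjective π) (hker : π.ker = center (GS (n + 1) K)) :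
    ⁅AR π, AR π⁆ ≤ AL π := by
  obtain ⟨ζ, hζ⟩ : IsCyclic Kˣ := by infer_instance
  obtain ⟨a₀, ha₀⟩ : ∃ a : Fin n → K, a ≠ 0 := by
    have : Nontrivial (Fin n → K) := by
      haveI : Nonempty (Fin n) := ⟨⟨0, by omega⟩⟩
      infer_instance
    exact exists_ne 0
  have hpow : ∀ c : K, c ≠ 0 → ∃ m : ℕ, c = (ζ : K) ^ m := by
    intro c hc
    have h1 : Units.mk0 c hc ∈ Submonoid.powers ζ := mem_powers_iff_mem_zpowers.mpr (hζ _)
    obtain ⟨m, hm⟩ := h1
    exact ⟨m, by
      have h2 := congrArg Units.val hm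
      simp only [Units.val_pow_eq_pow_val, Units.val_mk0] at h2
      exact h2.symm⟩
  -- the exponent of an additive automorphism
  have hexp : ∀ s : (Fin n → K) ≃+ (Fin n → K),
      (∀ c : K, ∃ c' : K, ∀ a, s (c • a) = c' • s a) →
      ∃ i : ℕ, ∀ a, s ((ζ : K) • a) = (ζ : K) ^ i • s a := by
    intro s hs
    obtain ⟨c', hc'⟩ := hs ζ
    have h0 : c' ≠ 0 := by
      rintro rfl
      have h1 := hc' a₀
      rw [zero_smul, ← map_zero s] at h1
      have h2 := s.injective h1
      rw [smul_eq_zero] at h2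
      exact h2.elim ζ.ne_zero ha₀
    obtain ⟨i, hi⟩ := hpow c' h0
    exact ⟨i, fun a => by rw [hc', hi]⟩
  have hexp' : ∀ (s : (Fin n → K) ≃+ (Fin n → K)) (i : ℕ),
      (∀ a, s ((ζ : K) • a) = (ζ : K) ^ i • s a) →
      ∀ (m : ℕ) a, s ((ζ : K) ^ m • a) = (ζ : K) ^ (i * m) • s a := by
    intro s i hi m
    induction m with
    | zero => intro a; rw [pow_zero, one_smul, mul_zero, pow_zero, one_smul]
    | succ m ih =>
      intro a
      rw [pow_succ', mul_smul, hi, ih, smul_smul]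
      congr 1
      ring
  rw [commutator_le]
  intro α hα β hβ
  obtain ⟨s, hs⟩ := exists_act p hker hα
  obtain ⟨t, ht⟩ := exists_act p hker hβ
  have hs' : ∀ a, α⁻¹ (ct π a) = ct π (s.symm a) := by
    intro a
    apply α.injective
    have h1 : α (α⁻¹ (ct π a)) = ct π a := α.apply_symm_apply _
    rw [h1, hs, s.apply_symm_apply]
  have ht' : ∀ a, β⁻¹ (ct π a) = ct π (t.symm a) := by
    intro a
    apply β.injective
    have h1 : β (β⁻¹ (ct π a)) = ct π a := β.apply_symm_apply _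
    rw [h1, ht, t.apply_symm_apply]
  obtain ⟨i, hi⟩ := hexp s (scalar_of_act p hn hπ hker hα hs)
  obtain ⟨j, hj⟩ := hexp t (scalar_of_act p hn hπ hker hβ ht)
  obtain ⟨i', hi'⟩ := hexp s.symm (scalar_of_act p hn hπ hker ((AR π).inv_mem hα) hs')
  obtain ⟨j', hj'⟩ := hexp t.symm (scalar_of_act p hn hπ hker ((AR π).inv_mem hβ) ht')
  have hcan : ∀ m m' : ℕ, (∀ a : Fin n → K, (ζ : K) ^ m • a = (ζ : K) ^ m' • a) →
      (ζ : K) ^ m = (ζ : K) ^ m' := by
    intro m m' h
    have h1 := h a₀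
    have h2 : ((ζ : K) ^ m - (ζ : K) ^ m') • a₀ = 0 := by rw [sub_smul, h1, sub_self]
    exact sub_eq_zero.mp ((smul_eq_zero.mp h2).resolve_right ha₀)
  have e1 : (ζ : K) ^ (i * i') = (ζ : K) ^ 1 := by
    apply hcan
    intro a
    have h1 := hi' (s.symm a)
    have h2 := congrArg s (hi' a)
    rw [s.apply_symm_apply, hexp' s i hi, s.apply_symm_apply] at h2
    rw [pow_one]
    exact h2.symm
  have e2 : (ζ : K) ^ (j * j') = (ζ : K) ^ 1 := by
    apply hcan
    intro a
    have h2 := congrArg t (hj' a)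
    rw [t.apply_symm_apply, hexp' t j hj, t.apply_symm_apply] at h2
    rw [pow_one]
    exact h2.symm
  have hw : ∀ a, s (t (s.symm (t.symm ((ζ : K) • a)))) = (ζ : K) • s (t (s.symm (t.symm a))) := by
    intro a
    rw [hj', hexp' s.symm i' hi', hexp' t j hj, hexp' s i hi]
    congr 1
    calc (ζ : K) ^ (i * (j * (i' * j'))) = ((ζ : K) ^ (i * i')) ^ (j * j') := by
          rw [← pow_mul]; congr 1; ring
      _ = (ζ : K) := by rw [e1, pow_one, e2, pow_one]
  have hw' : ∀ (m : ℕ) a, s (t (s.symm (t.symm ((ζ : K) ^ m • a)))) =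
      (ζ : K) ^ m • s (t (s.symm (t.symm a))) := by
    intro m
    induction m with
    | zero => intro a; rw [pow_zero, one_smul, one_smul]
    | succ m ih => intro a; rw [pow_succ', mul_smul, hw, ih, smul_smul]
  let w : (Fin n → K) ≃+ (Fin n → K) := ((t.symm.trans s.symm).trans t).trans s
  have hwl : ∀ (c : K) a, w (c • a) = c • w a := by
    intro c a
    by_cases hc : c = 0
    · rw [hc, zero_smul, zero_smul, map_zero]
    · obtain ⟨m, rfl⟩ := hpow c hc
      exact hw' m a
  refine ⟨{ w with map_smul' := hwl }, fun a => ?_⟩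
  rw [commutatorElement_def, MulAut.mul_apply, MulAut.mul_apply, MulAut.mul_apply, ht', hs', ht, hs]
  rfl

/-- automorphisms which centralise the radical -/
def K1 (R : Subgroup T) : Subgroup (MulAut T) where
  carrier := {α | ∀ r ∈ R, α r = r}
  one_mem' := fun r _ => rfl
  mul_mem' := by
    intro α β hα hβ r hr
    rw [MulAut.mul_apply, hβ r hr, hα r hr]
  inv_mem' := by
    intro α hα r hr
    nth_rewrite 1 [← hα r hr]
    exact α.symm_apply_apply r

theorem derived_two (hn : 1 ≤ n) : ⁅AL π, AL π⁆ ≤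
    (MulAut.conj : T →* MulAut T).range ⊔ K1 (RT π (H0 n K)) := by
  rw [commutator_le]
  rintro α ⟨s, hs⟩ β ⟨t, ht⟩
  have h1 : LinearEquiv.det ⁅s, t⁆ = 1 := by
    rw [commutatorElement_def, map_mul, map_mul, map_mul, map_inv, map_inv,
      mul_comm (LinearEquiv.det s), mul_inv_cancel_right, mul_inv_cancel]
  have h2 := Matrix.SpecialLinearGroup.toLin'_equiv.apply_symm_apply
    (⟨⁅s, t⁆, h1⟩ : _root_.SpecialLinearGroup K (Fin n → K))
  set B : GS n K := Matrix.SpecialLinearGroup.toLin'_equiv.symm ⟨⁅s, t⁆, h1⟩ with hB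
  have h3 : nat n K B = ⁅s, t⁆ := congrArg Subtype.val h2
  obtain ⟨x, hx⟩ := act_em (π := π) hn B
  have hs' : ∀ a, α⁻¹ (ct π a) = ct π (s⁻¹ a) := by
    intro a
    apply α.injective
    have h1 : α (α⁻¹ (ct π a)) = ct π a := α.apply_symm_apply _
    have h4 : s (s⁻¹ a) = a := s.apply_symm_apply a
    rw [h1, hs, h4]
  have ht' : ∀ a, β⁻¹ (ct π a) = ct π (t⁻¹ a) := by
    intro a
    apply β.injective
    have h1 : β (β⁻¹ (ct π a)) = ct π a := β.apply_symm_apply _
    have h4 : t (t⁻¹ a) = a := t.apply_symm_apply a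
    rw [h1, ht, h4]
  have h4 : ⁅α, β⁆ = MulAut.conj x * ((MulAut.conj x)⁻¹ * ⁅α, β⁆) := by group
  rw [h4]
  refine Subgroup.mul_mem _ (mem_sup_left ⟨x, rfl⟩) (mem_sup_right ?_)
  intro r hr
  obtain ⟨a, rfl⟩ := exists_ct hr
  have h5 : ⁅α, β⁆ (ct π a) = ct π (nat n K B a) := by
    rw [commutatorElement_def, MulAut.mul_apply, MulAut.mul_apply, MulAut.mul_apply, ht', hs', ht,
      hs, h3]
    rfl
  rw [MulAut.mul_apply, h5, ← hx a]
  exact (MulAut.conj x).symm_apply_apply (ct π a)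

theorem K1_normalizer {R : Subgroup T} {α : MulAut T} (hα : α ∈ K1 R) {g : T}
    (hg : g ∈ normalizer (R : Set T)) : α g ∈ normalizer (R : Set T) := by
  rw [mem_normalizer_iff] at hg ⊢
  have h1 : ∀ r ∈ R, α g * r * (α g)⁻¹ ∈ R := by
    intro r hr
    have h2 : α (g * r * g⁻¹) = α g * r * (α g)⁻¹ := by
      rw [map_mul, map_mul, map_inv, hα r hr]
    rw [← h2, hα _ ((hg r).mp hr)]
    exact (hg r).mp hr
  intro r
  refine ⟨h1 r, fun h => ?_⟩
  have h2 : α (g⁻¹ * (α g * r * (α g)⁻¹) * g) = r := by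
    rw [map_mul, map_mul, map_inv, hα _ h]
    group
  have h3 : g⁻¹ * (α g * r * (α g)⁻¹) * g ∈ R := by
    have h4 := (hg (g⁻¹ * (α g * r * (α g)⁻¹) * g)).mpr
    apply h4
    have h5 : g * (g⁻¹ * (α g * r * (α g)⁻¹) * g) * g⁻¹ = α g * r * (α g)⁻¹ := by group
    rw [h5]
    exact h
  rw [hα _ h3] at h2
  rw [← h2]
  exact h3

theorem derived_three {R : Subgroup T} (hR : ∀ x ∈ R, ∀ y ∈ R, x * y = y * x)
    (hC : centralizer (R : Set T) ≤ R) : ⁅K1 R, K1 R⁆ ≤ K1 (normalizer (R : Set T)) := by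
  rw [commutator_le]
  intro α hα β hβ g hg
  set h := α⁻¹ (β⁻¹ g) with hh
  have h1 : h ∈ normalizer (R : Set T) :=
    K1_normalizer ((K1 R).inv_mem hα) (K1_normalizer ((K1 R).inv_mem hβ) hg)
  have h2 := comm_on_normalizer hR hC hα hβ h1
  rw [commutatorElement_def, MulAut.mul_apply, MulAut.mul_apply, MulAut.mul_apply]
  change α (β h) = g
  rw [h2]
  have h3 : α h = β⁻¹ g := α.apply_symm_apply _
  rw [h3]
  exact β.apply_symm_apply _

theorem tv_commutator {N : ℕ} {i l j : Fin N} (hil : i ≠ l) (hlj : l ≠ j) (hij : i ≠ j)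
    (a b : K) : tv hil a * tv hlj b * tv hil (-a) * tv hlj (-b) = tv hij (a * b) := by
  apply ext_mulVec
  intro v
  simp only [coe_mul_mulVec, tv_mulVec]
  funext k
  simp only [Pi.add_apply]
  by_cases hi : k = i
  · subst hi
    simp only [Pi.single_eq_same, Pi.single_eq_of_ne hil, Pi.single_eq_of_ne hil.symm,
      Pi.single_eq_of_ne hlj, Pi.single_eq_of_ne hlj.symm, Pi.single_eq_of_ne hij,
      Pi.single_eq_of_ne hij.symm]
    ring
  · by_cases hl : k = l
    · subst hl
      simp only [Pi.single_eq_same, Pi.single_eq_of_ne hil, Pi.single_eq_of_ne hil.symm,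
        Pi.single_eq_of_ne hlj, Pi.single_eq_of_ne hlj.symm, Pi.single_eq_of_ne hij,
        Pi.single_eq_of_ne hij.symm]
      ring
    · simp only [Pi.single_eq_of_ne hi, Pi.single_eq_of_ne hl]
      ring

theorem derived_four [Finite K] (p : ℕ) [Fact p.Prime] [CharP K p] (hn : 2 ≤ n)
    (hπ : Function.Surjective π) (hker : π.ker = center (GS (n + 1) K)) :
    ⁅K1 (normalizer ((RT π (H0 n K) : Subgroup T) : Set T)),
      K1 (normalizer ((RT π (H0 n K) : Subgroup T) : Set T))⁆ = ⊥ := by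
  let j : Fin (n + 1) := Fin.succ ⟨0, by omega⟩
  have hj : j ≠ 0 := Fin.succ_ne_zero _
  let W : Submodule K (Fin (n + 1) → K) := Submodule.span K {Pi.single j 1}
  have hWH : W ≤ H0 n K := by
    rw [Submodule.span_singleton_le_iff_mem, mem_H0, Pi.single_eq_of_ne hj.symm]
  have hv0 : (Pi.single j 1 : Fin (n + 1) → K) ≠ 0 := by
    intro h
    have h1 := congrFun h j
    rw [Pi.single_eq_same] at h1
    exact one_ne_zero h1
  have hW0 : W ≠ ⊥ := by
    intro h
    exact hv0 (Submodule.span_singleton_eq_bot.mp h)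
  have hW1 : W ≠ ⊤ := by
    intro h
    apply H0_ne_top (K := K) (n := n)
    rw [eq_top_iff, ← h]
    exact hWH
  have hH : H0 n K ≠ ⊥ := H0_ne_bot (by omega)
  have hle : (RT π W : Subgroup T) ≤ normalizer ((RT π (H0 n K) : Subgroup T) : Set T) := by
    rintro _ ⟨r, hr, rfl⟩
    rw [mem_normalizer_RT (p := p) hker hH]
    refine PW_of_le fun w hw => ?_
    have h1 := Submodule.add_mem _ (hWH (hr.2 w)) hw
    rwa [sub_add_cancel] at h1
  rw [eq_bot_iff, commutator_le]
  intro α hα β hβ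
  rw [mem_bot, commutatorElement_eq_one_iff_mul_comm]
  have hcomm : ∀ x ∈ (RT π W : Subgroup T), ∀ y ∈ (RT π W : Subgroup T), x * y = y * x := by
    rintro _ ⟨r, hr, rfl⟩ _ ⟨s, hs, rfl⟩
    rw [← map_mul, RW_comm hr hs, map_mul]
  have hP' : ∀ g ∈ normalizer ((RT π W : Subgroup T) : Set T), α (β g) = β (α g) := by
    intro g hg
    exact comm_on_normalizer hcomm (centralizer_map_RW (p := p) hπ hker hW0 hW1)
      (fun r hr => hα r (hle hr)) (fun r hr => hβ r (hle hr)) hg
  have hP : ∀ g ∈ normalizer ((RT π (H0 n K) : Subgroup T) : Set T), α (β g) = β (α g) := by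
    intro g hg
    rw [hβ g hg, hα g hg, hβ g hg]
  let E : Subgroup T :=
    { carrier := {g | α (β g) = β (α g)}
      one_mem' := by
        change α (β 1) = β (α 1)
        rw [map_one, map_one, map_one]
      mul_mem' := by
        intro g h hg hh
        change α (β (g * h)) = β (α (g * h))
        have hg' : α (β g) = β (α g) := hg
        have hh' : α (β h) = β (α h) := hh
        rw [map_mul, map_mul, map_mul, map_mul, hg', hh']
      inv_mem' := by
        intro g hg
        change α (β g⁻¹) = β (α g⁻¹)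
        have hg' : α (β g) = β (α g) := hg
        rw [map_inv, map_inv, map_inv, map_inv, hg'] }
  -- the transvections
  have htv : ∀ (i l : Fin (n + 1)) (hil : i ≠ l) (c : K), i ≠ 0 ∨ l ≠ j → π (tv hil c) ∈ E := by
    intro i l hil c hor
    rcases hor with h | h
    · refine hP _ ?_
      rw [mem_normalizer_RT (p := p) hker hH]
      refine PW_of_le fun w hw => ?_
      rw [nat_apply, tv_mulVec, mem_H0, Pi.add_apply, mem_H0.mp hw, Pi.single_eq_of_ne h.symm,
        add_zero]
    · refine hP' _ ?_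
      rw [mem_normalizer_RT (p := p) hker hW0]
      refine PW_of_le fun w hw => ?_
      obtain ⟨d, rfl⟩ := Submodule.mem_span_singleton.mp hw
      rw [nat_apply, tv_mulVec, Pi.smul_apply, Pi.single_eq_of_ne h, smul_zero, mul_zero,
        Pi.single_zero, add_zero]
      exact hw
  have htv' : ∀ (i l : Fin (n + 1)) (hil : i ≠ l) (c : K), π (tv hil c) ∈ E := by
    intro i l hil c
    by_cases h : i ≠ 0 ∨ l ≠ j
    · exact htv i l hil c h
    · push Not at h
      obtain ⟨rfl, rfl⟩ := h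
      -- a third index
      let l : Fin (n + 1) := Fin.succ ⟨1, by omega⟩
      have hl0 : (0 : Fin (n + 1)) ≠ l := (Fin.succ_ne_zero _).symm
      have hlj : l ≠ j := by
        intro h
        have h1 := Fin.succ_injective _ h
        have h2 := congrArg Fin.val h1
        exact one_ne_zero h2
      have h1 := tv_commutator hl0 hlj hil c 1
      rw [mul_one] at h1
      rw [← h1, map_mul, map_mul, map_mul]
      exact E.mul_mem (E.mul_mem (E.mul_mem (htv _ _ _ _ (Or.inr hlj)) (htv _ _ _ _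
        (Or.inl hl0.symm))) (htv _ _ _ _ (Or.inr hlj))) (htv _ _ _ _ (Or.inl hl0.symm))
  ext t
  obtain ⟨g, rfl⟩ := hπ t
  have h1 : π g ∈ E := tv_induction (by omega) (fun g => π g ∈ E) htv'
    (by rw [map_one]; exact E.one_mem) (fun A B hA hB => by
      rw [map_mul]
      exact E.mul_mem hA hB) g
  rw [MulAut.mul_apply, MulAut.mul_apply]
  exact h1

end Vale.Agent.P180.R2.H589.Bt
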