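import Vale.Agent.P180.R2.H589.Bt.Loc
import Mathlib.LinearAlgebra.Dual.Lemmas

/-!
P180: the radical subgroups of `PSL(N, K)` which belong to subspaces.
-/

set_option linter.all false

namespace Vale.Agent.P180.R2.H589.Bt

open Subgroup Module
open Vale.Agent.P180.R2.H589.Sch

variable {K : Type*} [Field K] {N : ℕ}

theorem exists_vec {φ ψ : Dual K (Fin N → K)} (h : LinearIndependent K ![φ, ψ]) :
    ∃ a, φ a = 1 ∧ ψ a = 1 := by
  obtain ⟨Φ, hΦ⟩ := exists_form h
  have h0 : Φ φ = 1 := by simpa using hΦ 0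
  have h1 : Φ ψ = 1 := by simpa using hΦ 1
  obtain ⟨a, rfl⟩ := (Module.evalEquiv K (Fin N → K)).surjective Φ
  exact ⟨a, h0, h1⟩

theorem Fx_RW {W : Submodule K (Fin N → K)} (h0 : W ≠ ⊥) : Fx (RW W) = W := by
  apply le_antisymm
  · intro x hx
    by_contra hxW
    obtain ⟨φ, hφ, hφx⟩ := exists_sep hxW
    obtain ⟨a, ha, ha0⟩ := W.ne_bot_iff.mp h0
    obtain ⟨r, hr⟩ := exists_tv (hφ a ha)
    have h1 := hx r (tv_mem_RW hφ ha hr)
    rw [hr, hφx, one_smul] at h1
    exact ha0 (by simpa using h1)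
  · intro w hw y hy
    exact hy.1 w hw

theorem le_of_RW_le {W W' : Submodule K (Fin N → K)} (h1 : W' ≠ ⊤) (h : RW W' ≤ RW W) :
    W' ≤ W := by
  intro a ha
  obtain ⟨v, hv⟩ : ∃ v, v ∉ W' := by
    by_contra hc
    push Not at hc
    exact h1 (Submodule.eq_top_iff'.mpr hc)
  obtain ⟨φ, hφ, hφv⟩ := exists_sep hv
  obtain ⟨r, hr⟩ := exists_tv (hφ a ha)
  have h2 := (h (tv_mem_RW hφ ha hr)).2 v
  rwa [hr, hφv, one_smul, add_sub_cancel_left] at h2

theorem Fx_anti {Y Y' : Subgroup (GS N K)} (h : Y ≤ Y') : Fx Y' ≤ Fx Y :=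
  fun x hx y hy => hx y (h hy)

variable {p : ℕ} [hp : Fact p.Prime] [CharP K p]

/-- All linear maps `V / W → W` come from elements of the radical. -/
theorem exists_of_hom (p : ℕ) [Fact p.Prime] [CharP K p] {W : Submodule K (Fin N → K)}
    (h : ((Fin N → K) ⧸ W) →ₗ[K] W) :
    ∃ g : GS N K, ∀ x, nat N K g x = x + (h (W.mkQ x) : Fin N → K) := by
  let f : (Fin N → K) →ₗ[K] (Fin N → K) := W.subtype ∘ₗ h ∘ₗ W.mkQ
  have hf : ∀ x, f x = (h (W.mkQ x) : Fin N → K) := fun x => rfl
  have hff : ∀ x, f (f x) = 0 := by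
    intro x
    rw [hf (f x)]
    have h1 : W.mkQ (f x) = 0 := by
      rw [Submodule.mkQ_apply, Submodule.Quotient.mk_eq_zero]
      exact (h (W.mkQ x)).2
    rw [h1, map_zero]
    rfl
  let e : (Fin N → K) ≃ₗ[K] (Fin N → K) := LinearEquiv.ofLinear (LinearMap.id + f)
    (LinearMap.id - f) (by
      apply LinearMap.ext
      intro x
      simp only [LinearMap.comp_apply, LinearMap.add_apply, LinearMap.sub_apply,
        LinearMap.id_apply, map_sub, hff]
      abel) (by
      apply LinearMap.ext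
      intro x
      simp only [LinearMap.comp_apply, LinearMap.add_apply, LinearMap.sub_apply,
        LinearMap.id_apply, map_add, hff]
      abel)
  have he : ∀ x, e x = x + f x := fun x => rfl
  have hpow : ∀ (m : ℕ) x, (e ^ m) x = x + (m : K) • f x := by
    intro m
    induction m with
    | zero =>
      intro x
      rw [pow_zero, Nat.cast_zero, zero_smul, add_zero]
      rfl
    | succ m ih =>
      intro x
      rw [pow_succ', LinearEquiv.mul_apply, ih, he, map_add, map_smul, hff]
      push_cast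
      module
  have h1 : e ^ p = 1 := by
    apply LinearEquiv.ext
    intro x
    rw [hpow, CharP.cast_eq_zero K p, zero_smul, add_zero]
    rfl
  have h2 : LinearEquiv.det e = 1 := by
    have h3 : (LinearEquiv.det e) ^ p = 1 := by rw [← map_pow, h1, map_one]
    have h4 : ((LinearEquiv.det e : Kˣ) : K) ^ p ^ 1 = 1 := by
      rw [pow_one, ← Units.val_pow_eq_pow_val, h3, Units.val_one]
    exact Units.ext (pow_eq_one_char h4)
  refine ⟨Matrix.SpecialLinearGroup.toLin'_equiv.symm ⟨e, h2⟩, fun x => ?_⟩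
  have h3 := Matrix.SpecialLinearGroup.toLin'_equiv.apply_symm_apply
    (⟨e, h2⟩ : _root_.SpecialLinearGroup K (Fin N → K))
  have h4 : nat N K (Matrix.SpecialLinearGroup.toLin'_equiv.symm ⟨e, h2⟩) = e :=
    congrArg Subtype.val h3
  rw [h4]
  rfl

/-- The order of the radical. -/
theorem card_RW (p : ℕ) [Fact p.Prime] [CharP K p] (W : Submodule K (Fin N → K)) :
    Nat.card (RW W) = Nat.card K ^ ((N - finrank K W) * finrank K W) := by
  choose g hg using fun h => exists_of_hom (K := K) (N := N) p (W := W) h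
  have hmem : ∀ h, g h ∈ RW W := by
    intro h
    refine ⟨fun w hw => ?_, fun x => ?_⟩
    · rw [hg]
      have h1 : W.mkQ w = 0 := by
        rw [Submodule.mkQ_apply, Submodule.Quotient.mk_eq_zero]
        exact hw
      rw [h1, map_zero]
      exact add_zero w
    · rw [hg, add_sub_cancel_left]
      exact (h (W.mkQ x)).2
  have hbij : Function.Bijective (fun h => (⟨g h, hmem h⟩ : RW W)) := by
    constructor
    · intro h h' hh
      have h1 : g h = g h' := congrArg Subtype.val hh
      apply LinearMap.ext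
      intro q
      obtain ⟨x, rfl⟩ := W.mkQ_surjective q
      apply Subtype.ext
      have h2 := hg h x
      rw [h1, hg h'] at h2
      exact (add_left_cancel h2).symm
    · rintro ⟨r, hr⟩
      let f₀ : (Fin N → K) →ₗ[K] W :=
        { toFun := fun x => ⟨nat N K r x - x, hr.2 x⟩
          map_add' := by
            intro x y
            apply Subtype.ext
            change nat N K r (x + y) - (x + y) = (nat N K r x - x) + (nat N K r y - y)
            rw [map_add]
            abel
          map_smul' := by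
            intro c x
            apply Subtype.ext
            change nat N K r (c • x) - c • x = c • (nat N K r x - x)
            rw [map_smul, smul_sub] }
      have hf₀ : W ≤ LinearMap.ker f₀ := by
        intro w hw
        rw [LinearMap.mem_ker]
        apply Subtype.ext
        change nat N K r w - w = 0
        rw [hr.1 w hw, sub_self]
      refine ⟨W.liftQ f₀ hf₀, Subtype.ext ?_⟩
      apply nat_injective
      apply LinearEquiv.ext
      intro x
      change nat N K (g _) x = _
      rw [hg, Submodule.mkQ_apply, Submodule.liftQ_apply]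
      change x + (nat N K r x - x) = _
      abel
  rw [← Nat.card_congr (Equiv.ofBijective _ hbij), Module.natCard_eq_pow_finrank (K := K),
    Module.finrank_linearMap]
  congr 2
  have h1 := Submodule.finrank_quotient_add_finrank W
  rw [Module.finrank_fin_fun] at h1
  omega

section T

variable [Finite K] {T : Type*} [Group T] {π : GS N K →* T}

/-- the image of the radical -/
abbrev RT (π : GS N K →* T) (W : Submodule K (Fin N → K)) : Subgroup T := (RW W).map π

omit [Finite K] in
theorem isPGroup_RT (W : Submodule K (Fin N → K)) : IsPGroup p (RT π W) :=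
  (isPGroup_RW (p := p) W).map π

theorem Lf_RT (hker : π.ker = center (GS N K)) (W : Submodule K (Fin N → K)) :
    Lf hker (isPGroup_RT (p := p) (π := π) W) = RW W := by
  ext g
  rw [mem_Lf]
  constructor
  · rintro ⟨h1, r, hr, hrg⟩
    have h2 : Pel p r := ⟨1, by rw [pow_one]; exact RW_pow hr⟩
    have h3 := pel_unique (ker_le hker) (not_dvd_ker hker) h2 h1 hrg
    rwa [← h3]
  · intro h
    exact ⟨⟨1, by rw [pow_one]; exact RW_pow h⟩, g, h, rfl⟩

omit hp [CharP K p] [Finite K] in
theorem mem_normalizer_of_conj {G : Type*} [Group G] {H : Subgroup G} {g : G}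
    (h1 : ∀ x ∈ H, g * x * g⁻¹ ∈ H) (h2 : ∀ x ∈ H, g⁻¹ * x * g ∈ H) :
    g ∈ normalizer (H : Set G) := by
  rw [mem_normalizer_iff]
  intro x
  refine ⟨h1 x, fun hx => ?_⟩
  have h3 := h2 _ hx
  have h4 : g⁻¹ * (g * x * g⁻¹) * g = x := by group
  rwa [h4] at h3

include hp in
theorem mem_normalizer_RT (hker : π.ker = center (GS N K)) {W : Submodule K (Fin N → K)}
    (h0 : W ≠ ⊥) {g : GS N K} : π g ∈ normalizer ((RT π W : Subgroup T) : Set T) ↔ g ∈ PW W := by
  constructor
  · intro h
    have h1 := conj_mem_PW hker (isPGroup_RT (p := p) (π := π) W) h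
    rwa [Lf_RT, Fx_RW h0] at h1
  · intro h
    refine mem_normalizer_of_conj ?_ ?_
    · rintro _ ⟨r, hr, rfl⟩
      exact ⟨g * r * g⁻¹, RW_conj h hr, by rw [map_mul, map_mul, map_inv]⟩
    · rintro _ ⟨r, hr, rfl⟩
      have h2 := RW_conj (Subgroup.inv_mem _ h) hr
      rw [inv_inv] at h2
      exact ⟨g⁻¹ * r * g, h2, by rw [map_mul, map_mul, map_inv]⟩

/-- The images of the radicals are radical. -/
theorem isRad_RT (hN : 0 < N) (hπ : Function.Surjective π) (hker : π.ker = center (GS N K))
    {W : Submodule K (Fin N → K)} (h0 : W ≠ ⊥) (h1 : W ≠ ⊤) : IsRad p (RT π W) := by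
  refine ⟨isPGroup_RT W, fun Y hY hYN hYc => ?_⟩
  have hnor : ∀ {g : GS N K}, g ∈ PW W → π g ∈ normalizer ((RT π W : Subgroup T) : Set T) :=
    fun h => (mem_normalizer_RT (p := p) hker h0).mpr h
  have hconj : ∀ {g : GS N K}, g ∈ PW W → ∀ y ∈ Lf hker hY, g * y * g⁻¹ ∈ Lf hker hY := by
    intro g hg y hy
    refine ⟨hy.1.conj g, ?_⟩
    rw [map_mul, map_mul, map_inv]
    exact hYc _ (hnor hg) _ hy.2
  have hconj' : ∀ {g : GS N K}, g ∈ PW W → ∀ y ∈ Lf hker hY, g⁻¹ * y * g ∈ Lf hker hY := by
    intro g hg y hy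
    have h2 := hconj (Subgroup.inv_mem _ hg) y hy
    rwa [inv_inv] at h2
  -- the fixed space contains `W`
  have hM : ∀ {g : GS N K}, g ∈ PW W → ∀ x ∈ Fx (Lf hker hY), nat N K g x ∈ Fx (Lf hker hY) :=
    fun hg x hx => ((mem_PW_Fx (hconj' hg)) x).2 hx
  have hWM : W ≤ Fx (Lf hker hY) := by
    obtain ⟨m, hm, hm0⟩ := (Submodule.ne_bot_iff _).mp (Fx_ne_bot hN hker hY)
    intro a ha
    by_cases hmW : m ∈ W
    · by_cases ham : a ∈ Submodule.span K {m}
      · exact (Submodule.span_singleton_le_iff_mem _ _).mpr hm ham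
      · obtain ⟨φ, hφ⟩ := exists_form (linInd_pair hm0 ham)
        have h2 : φ m = 1 := by simpa using hφ 0
        have h3 : φ a = 1 := by simpa using hφ 1
        obtain ⟨r, hr⟩ := exists_tv (show φ (a - m) = 0 by rw [map_sub, h2, h3, sub_self])
        have h4 : r ∈ PW W := PW_of_le fun w hw => by
          rw [hr]
          exact W.add_mem hw (W.smul_mem _ (W.sub_mem ha hmW))
        have h5 := hM h4 m hm
        rwa [hr, h2, one_smul, add_sub_cancel] at h5
    · obtain ⟨φ, hφ, hφm⟩ := exists_sep hmW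
      obtain ⟨r, hr⟩ := exists_tv (hφ a ha)
      have h5 := hM (RW_le_PW W (tv_mem_RW hφ ha hr)) m hm
      rw [hr, hφm, one_smul] at h5
      have h6 := Submodule.sub_mem _ h5 hm
      rwa [add_sub_cancel_left] at h6
  have hYW : Lf hker hY ≤ PW W := fun y hy => (mem_normalizer_RT (p := p) hker h0).mp (hYN hy.2)
  -- the elements fixed modulo `W`
  obtain ⟨v, hv, hvy⟩ := exists_fixed_quot (p := p) h1 (isPGroup_Lf hker hY) hYW
  have hall : ∀ x, ∀ y ∈ Lf hker hY, nat N K y x - x ∈ W := by
    intro x y hy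
    by_cases hx : ∃ c : K, x - c • v ∈ W
    · obtain ⟨c, hc⟩ := hx
      have h2 : nat N K y x - x = (nat N K y (x - c • v) - (x - c • v)) +
          c • (nat N K y v - v) := by
        rw [map_sub, map_smul, smul_sub]
        abel
      rw [h2]
      exact W.add_mem (W.sub_mem (((hYW hy) _).2 hc) hc) (W.smul_mem _ (hvy y hy))
    · push Not at hx
      have hv' : v ∉ W ⊔ Submodule.span K {x - v} := by
        intro h
        obtain ⟨w, hw, z, hz, hwz⟩ := Submodule.mem_sup.mp h
        obtain ⟨c, rfl⟩ := Submodule.mem_span_singleton.mp hz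
        by_cases hc : c = 0
        · rw [hc, zero_smul, add_zero] at hwz
          exact hv (hwz ▸ hw)
        · apply hx (c⁻¹ * (1 + c))
          have h2 : x - (c⁻¹ * (1 + c)) • v = -(c⁻¹ • w) := by
            have h3 : c • x = (1 + c) • v - w := by
              rw [← sub_eq_zero]
              have h4 : w + c • (x - v) - v = 0 := by rw [hwz, sub_self]
              rw [← h4]
              module
            have h5 : x = c⁻¹ • (c • x) := by rw [smul_smul, inv_mul_cancel₀ hc, one_smul]
            rw [h5, h3]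
            module
          rw [h2]
          exact W.neg_mem (W.smul_mem _ hw)
      obtain ⟨φ, hφ, hφv⟩ := exists_sep hv'
      obtain ⟨r, hr⟩ := exists_tv (hφ (x - v)
        (Submodule.mem_sup_right (Submodule.mem_span_singleton_self _)))
      have h4 : r ∈ PW W := PW_of_le fun w hw => by
        rw [hr, hφ w (Submodule.mem_sup_left hw), zero_smul, add_zero]
        exact hw
      have h5 : nat N K r v = x := by rw [hr, hφv, one_smul, add_sub_cancel]
      have h6 := hvy _ (hconj' h4 y hy)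
      have h7 := (h4 _).2 h6
      rw [map_sub, nat_mul_apply, nat_mul_apply, nat_inv_apply, h5] at h7
      exact h7
  intro t ht
  obtain ⟨g, hg, hgt⟩ := exists_pel (p := p) (not_dvd_ker hker) (isPGroup_iff.mp hY t ht) (hπ t)
  have hgY : g ∈ Lf hker hY := ⟨hg, by rw [hgt]; exact ht⟩
  exact ⟨g, ⟨fun w hw => hWM hw g hgY, fun x => hall x g hgY⟩, hgt⟩

omit [CharP K p] [Finite K] in
theorem IsRad.map {G G' : Type*} [Group G] [Group G'] (α : G ≃* G') {Q : Subgroup G}
    (hQ : IsRad p Q) : IsRad p (Q.map α.toMonoidHom) := by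
  have hmem : ∀ x, α x ∈ Q.map α.toMonoidHom ↔ x ∈ Q := by
    intro x
    constructor
    · rintro ⟨y, hy, hyx⟩
      rwa [← α.injective hyx]
    · intro h
      exact ⟨x, h, rfl⟩
  have hnor : ∀ g ∈ normalizer (Q : Set G), α g ∈ normalizer ((Q.map α.toMonoidHom : Subgroup G') : Set G') := by
    intro g hg
    rw [mem_normalizer_iff]
    intro x
    obtain ⟨x, rfl⟩ := α.surjective x
    rw [← map_inv, ← map_mul, ← map_mul, hmem, hmem]
    exact mem_normalizer_iff.mp hg x
  have hnor' : ∀ g, α g ∈ normalizer ((Q.map α.toMonoidHom : Subgroup G') : Set G') →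
      g ∈ normalizer (Q : Set G) := by
    intro g hg
    rw [mem_normalizer_iff] at hg ⊢
    intro x
    have h1 := hg (α x)
    rwa [← map_inv, ← map_mul, ← map_mul, hmem, hmem] at h1
  refine ⟨hQ.1.map _, fun P hP hPN hPc => ?_⟩
  have h1 := hQ.2 (P.comap α.toMonoidHom) (by
      rw [isPGroup_iff] at hP ⊢
      intro x hx
      obtain ⟨n, hn⟩ := hP (α x) hx
      refine ⟨n, α.injective ?_⟩
      rw [map_pow, hn, map_one]) (fun x hx => hnor' x (hPN hx)) (fun g hg x hx => by
      change α (g * x * g⁻¹) ∈ P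
      rw [map_mul, map_mul, map_inv]
      exact hPc _ (hnor g hg) _ hx)
  intro x hx
  obtain ⟨y, rfl⟩ := α.surjective x
  exact ⟨y, h1 hx, rfl⟩

/-- Automorphisms permute the radicals of subspaces. -/
theorem exists_RT_of_aut (p : ℕ) [Fact p.Prime] [CharP K p] (hN : 0 < N)
    (hπ : Function.Surjective π) (hker : π.ker = center (GS N K))
    {W : Submodule K (Fin N → K)} (h0 : W ≠ ⊥) (h1 : W ≠ ⊤) (α : T ≃* T) :
    ∃ W' : Submodule K (Fin N → K), W' ≠ ⊥ ∧ W' ≠ ⊤ ∧ (RT π W).map α.toMonoidHom = RT π W' := by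
  have hQ : IsRad p ((RT π W).map α.toMonoidHom) := (isRad_RT hN hπ hker h0 h1).map α
  have hRT0 : RT π W ≠ ⊥ := by
    intro h
    have h2 := Lf_RT (p := p) hker W
    have h3 : RW W = ⊥ := by
      rw [eq_bot_iff]
      intro r hr
      have h4 : π r ∈ RT π W := ⟨r, hr, rfl⟩
      rw [h, mem_bot] at h4
      rw [mem_bot]
      refine center_pel (p := p) ?_ ⟨1, by rw [pow_one]; exact RW_pow hr⟩
      rw [← hker]
      exact h4
    have h5 := Fx_RW (W := W) h0
    rw [h3] at h5
    apply h1
    rw [← h5, Submodule.eq_top_iff']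
    intro x y hy
    rw [mem_bot.mp hy, map_one]
    rfl
  have hQ0 : (RT π W).map α.toMonoidHom ≠ ⊥ := by
    intro h
    apply hRT0
    rw [eq_bot_iff]
    intro x hx
    have h2 : α x ∈ (RT π W).map α.toMonoidHom := ⟨x, hx, rfl⟩
    rw [h, mem_bot] at h2
    rw [mem_bot]
    exact α.injective (by rw [h2, map_one])
  have hW'0 := Fx_ne_bot hN hker hQ.1
  have hW'1 := Fx_ne_top hπ hker hQ.1 hQ0
  refine ⟨_, hW'0, hW'1, ?_⟩
  have hle := map_RW_le hπ hker hQ
  refine le_antisymm ?_ hle
  -- the inverse image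
  set W' := Fx (Lf hker hQ.1) with hW'
  have hQ' : IsRad p ((RT π W').map α.symm.toMonoidHom) := (isRad_RT hN hπ hker hW'0 hW'1).map _
  have hle' : (RT π W').map α.symm.toMonoidHom ≤ RT π W := by
    rintro _ ⟨x, hx, rfl⟩
    obtain ⟨y, hy, rfl⟩ := hle hx
    change α.symm (α y) ∈ _
    rw [α.symm_apply_apply]
    exact hy
  have h2 := map_RW_le hπ hker hQ'
  have h3 : W ≤ Fx (Lf hker hQ'.1) := by
    nth_rewrite 1 [← Fx_RW (W := W) h0]
    apply Fx_anti
    intro y hy
    rw [← Lf_RT (p := p) hker W]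
    exact ⟨hy.1, hle' hy.2⟩
  have h4 : Fx (Lf hker hQ'.1) ≤ W := by
    refine le_of_RW_le ?_ ?_
    · refine Fx_ne_top hπ hker hQ'.1 ?_
      intro h
      have h5 : RT π W' = ⊥ := by
        rw [eq_bot_iff]
        intro x hx
        have h6 : α.symm x ∈ (RT π W').map α.symm.toMonoidHom := ⟨x, hx, rfl⟩
        rw [h, mem_bot] at h6
        rw [mem_bot]
        exact α.symm.injective (by rw [h6, map_one])
      have h7 := Fx_RW (W := W') hW'0
      apply hW'1
      rw [← h7, Submodule.eq_top_iff']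
      intro x y hy
      have h8 : π y ∈ RT π W' := ⟨y, hy, rfl⟩
      rw [h5, mem_bot] at h8
      have h9 : y = 1 := center_pel (p := p) (by rw [← hker]; exact h8)
        ⟨1, by rw [pow_one]; exact RW_pow hy⟩
      rw [h9, map_one]
      rfl
    · intro r hr
      rw [← Lf_RT (p := p) hker W]
      exact ⟨⟨1, by rw [pow_one]; exact RW_pow hr⟩, hle' (h2 ⟨r, hr, rfl⟩)⟩
  have h5 : Fx (Lf hker hQ'.1) = W := le_antisymm h4 h3
  rw [h5] at h2
  rintro _ ⟨x, hx, rfl⟩
  obtain ⟨y, hy, hyx⟩ := h2 hx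
  have h6 : α x = y := by
    rw [← hyx]
    exact α.apply_symm_apply y
  change α x ∈ _
  rw [h6]
  exact hy

end T

end Vale.Agent.P180.R2.H589.Bt
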