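import Vale.Agent.P180.R2.H589.Bt.Rad

/-!
P180: the radical of a hyperplane in `SL(n + 1, K)` and its automorphisms.
-/

set_option linter.all false

namespace Vale.Agent.P180.R2.H589.Bt

open Subgroup Module
open scoped commutatorElement
open Vale.Agent.P180.R2.H589.Sch

variable {K : Type*} [Field K] {n : ℕ}

/-- the hyperplane `x 0 = 0` -/
def H0 (n : ℕ) (K : Type*) [Field K] : Submodule K (Fin (n + 1) → K) :=
  LinearMap.ker (LinearMap.proj 0 : (Fin (n + 1) → K) →ₗ[K] K)

theorem mem_H0 {x : Fin (n + 1) → K} : x ∈ H0 n K ↔ x 0 = 0 := Iff.rfl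

/-- vectors of the hyperplane -/
def ex (a : Fin n → K) : Fin (n + 1) → K := Fin.cons 0 a

/-- the coordinates except the first one -/
def tl (x : Fin (n + 1) → K) : Fin n → K := fun j => x j.succ

theorem ex_zero (a : Fin n → K) : ex a 0 = 0 := rfl

theorem ex_mem (a : Fin n → K) : ex a ∈ H0 n K := rfl

theorem ex_succ (a : Fin n → K) (j : Fin n) : ex a j.succ = a j := rfl

theorem tl_ex (a : Fin n → K) : tl (ex a) = a := rfl

theorem ex_tl {x : Fin (n + 1) → K} (h : x 0 = 0) : ex (tl x) = x := by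
  funext i
  refine Fin.cases h.symm (fun j => rfl) i

theorem ex_add (a b : Fin n → K) : ex (a + b) = ex a + ex b := by
  funext i
  refine Fin.cases ?_ (fun j => rfl) i
  rw [Pi.add_apply, ex_zero, ex_zero, ex_zero, add_zero]

theorem ex_smul (c : K) (a : Fin n → K) : ex (c • a) = c • ex a := by
  funext i
  refine Fin.cases ?_ (fun j => rfl) i
  rw [Pi.smul_apply, ex_zero, ex_zero, smul_zero]

theorem tl_add (a b : Fin (n + 1) → K) : tl (a + b) = tl a + tl b := rfl

theorem tl_smul (c : K) (a : Fin (n + 1) → K) : tl (c • a) = c • tl a := rfl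

theorem exists_cl (a : Fin n → K) :
    ∃ g : GS (n + 1) K, ∀ x, nat (n + 1) K g x = x + x 0 • ex a :=
  exists_tv (φ := (LinearMap.proj 0 : (Fin (n + 1) → K) →ₗ[K] K)) (a := ex a) rfl

/-- the elements of the radical of the hyperplane -/
noncomputable def cl (a : Fin n → K) : GS (n + 1) K := (exists_cl a).choose

theorem cl_apply (a : Fin n → K) (x : Fin (n + 1) → K) :
    nat (n + 1) K (cl a) x = x + x 0 • ex a := (exists_cl a).choose_spec x

theorem cl_add (a b : Fin n → K) : cl (a + b) = cl a * cl b := by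
  apply nat_injective
  apply LinearEquiv.ext
  intro x
  rw [nat_mul_apply, cl_apply, cl_apply, cl_apply, ex_add, Pi.add_apply, Pi.smul_apply, ex_zero,
    smul_zero, add_zero]
  module

theorem cl_zero : cl (0 : Fin n → K) = 1 := by
  have h := cl_add (0 : Fin n → K) 0
  rw [add_zero] at h
  exact (mul_eq_left.mp h.symm)

theorem cl_injective : Function.Injective (cl : (Fin n → K) → GS (n + 1) K) := by
  intro a b h
  have h1 := congrArg (fun g => nat (n + 1) K g (Pi.single 0 1)) h
  simp only [cl_apply] at h1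
  have h2 := add_left_cancel h1
  rw [Pi.single_eq_same, one_smul, one_smul] at h2
  rw [← tl_ex a, h2, tl_ex]

theorem cl_mem (a : Fin n → K) : cl a ∈ RW (H0 n K) := by
  refine ⟨fun w hw => ?_, fun x => ?_⟩
  · rw [cl_apply, mem_H0.mp hw, zero_smul, add_zero]
  · rw [cl_apply, add_sub_cancel_left]
    exact Submodule.smul_mem _ _ (ex_mem a)

theorem exists_cl_of_mem {g : GS (n + 1) K} (hg : g ∈ RW (H0 n K)) : ∃ a, cl a = g := by
  have h1 := mem_H0.mp (hg.2 (Pi.single 0 1))
  refine ⟨tl (nat (n + 1) K g (Pi.single 0 1) - Pi.single 0 1), ?_⟩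
  apply nat_injective
  apply LinearEquiv.ext
  intro x
  rw [cl_apply, ex_tl h1]
  have h2 : x - x 0 • Pi.single 0 1 ∈ H0 n K := by
    rw [mem_H0, Pi.sub_apply, Pi.smul_apply, Pi.single_eq_same, smul_eq_mul, mul_one, sub_self]
  have h3 := hg.1 _ h2
  rw [map_sub, map_smul] at h3
  have h4 : nat (n + 1) K g x = (x - x 0 • Pi.single 0 1) +
      x 0 • nat (n + 1) K g (Pi.single 0 1) := by
    rw [← h3]; abel
  rw [h4]
  module

theorem H0_ne_top : H0 n K ≠ ⊤ := by
  intro h
  have h1 : (Pi.single 0 1 : Fin (n + 1) → K) ∈ H0 n K := by rw [h]; exact Submodule.mem_top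
  rw [mem_H0, Pi.single_eq_same] at h1
  exact one_ne_zero h1

theorem H0_ne_bot (hn : 1 ≤ n) : H0 n K ≠ ⊥ := by
  intro h
  let j : Fin n := ⟨0, hn⟩
  have h1 : (Pi.single j.succ 1 : Fin (n + 1) → K) ∈ H0 n K := by
    rw [mem_H0, Pi.single_eq_of_ne (Fin.succ_ne_zero j).symm]
  rw [h, Submodule.mem_bot] at h1
  have h2 := congrFun h1 j.succ
  rw [Pi.single_eq_same] at h2
  exact one_ne_zero h2

theorem finrank_H0 : finrank K (H0 n K) = n := by
  have h1 := LinearMap.finrank_range_add_finrank_ker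
    (LinearMap.proj 0 : (Fin (n + 1) → K) →ₗ[K] K)
  have h2 : LinearMap.range (LinearMap.proj 0 : (Fin (n + 1) → K) →ₗ[K] K) = ⊤ := by
    rw [LinearMap.range_eq_top]
    intro c
    exact ⟨fun _ => c, rfl⟩
  rw [h2, finrank_top, Module.finrank_self, Module.finrank_fin_fun] at h1
  have h3 : finrank K (H0 n K) = finrank K
      (LinearMap.ker (LinearMap.proj 0 : (Fin (n + 1) → K) →ₗ[K] K)) := rfl
  omega

/-- block diagonal elements -/
theorem exists_em (hn : 1 ≤ n) (B : GS n K) : ∃ g : GS (n + 1) K, ∀ x : Fin (n + 1) → K,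
    nat (n + 1) K g x = Fin.cons (α := fun _ => K) (x 0) (nat n K B (tl x)) := by
  refine tv_induction hn (fun B => ∃ g : GS (n + 1) K, ∀ x : Fin (n + 1) → K,
    nat (n + 1) K g x = Fin.cons (α := fun _ => K) (x 0) (nat n K B (tl x))) ?_ ?_ ?_ B
  · intro i j hij c
    refine ⟨tv ((Fin.succ_injective n).ne hij) c, fun x => ?_⟩
    rw [nat_apply, nat_apply, tv_mulVec, tv_mulVec]
    funext k
    refine Fin.cases ?_ (fun k => ?_) k
    · rw [Pi.add_apply, Pi.single_eq_of_ne (Fin.succ_ne_zero i).symm, add_zero]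
      rfl
    · rw [Fin.cons_succ, Pi.add_apply, Pi.add_apply]
      congr 1
      by_cases h : k = i
      · rw [h, Pi.single_eq_same, Pi.single_eq_same]
        rfl
      · rw [Pi.single_eq_of_ne h, Pi.single_eq_of_ne ((Fin.succ_injective n).ne h)]
  · refine ⟨1, fun x => ?_⟩
    rw [map_one, map_one]
    funext k
    refine Fin.cases rfl (fun k => rfl) k
  · rintro A B ⟨g, hg⟩ ⟨h, hh⟩
    refine ⟨g * h, fun x => ?_⟩
    rw [nat_mul_apply, hg, hh, nat_mul_apply]
    rfl

/-- An additive map which commutes with `SL(n, K)`, `n ≥ 2`, is a scalar. -/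
theorem scalar_of_comm (hn : 2 ≤ n) {s : (Fin n → K) → (Fin n → K)}
    (hadd : ∀ a b, s (a + b) = s a + s b)
    (hs : ∀ (B : GS n K) a, s (nat n K B a) = nat n K B (s a)) : ∃ c : K, ∀ a, s a = c • a := by
  have key : ∀ (φ : Dual K (Fin n → K)) (a : Fin n → K), φ a = 0 → ∀ x,
      s (φ x • a) = φ (s x) • a := by
    intro φ a ha x
    obtain ⟨B, hB⟩ := exists_tv ha
    have h1 := hs B x
    rw [hB, hB, hadd] at h1
    exact add_left_cancel h1
  have h0 : s 0 = 0 := by
    have := hadd 0 0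
    rw [add_zero] at this
    exact (add_eq_left.mp this.symm)
  -- independent vectors
  have hind : ∀ a b : Fin n → K, a ≠ 0 → b ∉ Submodule.span K {a} →
      ∃ φ : Dual K (Fin n → K), φ a = 0 ∧ φ b = 1 := by
    intro a b ha hb
    obtain ⟨φ, h1, h2⟩ := exists_sep hb
    exact ⟨φ, h1 a (Submodule.mem_span_singleton_self a), h2⟩
  have hout : ∀ a : Fin n → K, ∃ b, b ∉ Submodule.span K {a} := by
    intro a
    by_contra hcon
    push Not at hcon
    have h1 : Submodule.span K {a} = ⊤ := by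
      rw [eq_top_iff]; intro x _; exact hcon x
    have h2 : finrank K (Submodule.span K {a}) ≤ 1 := (finrank_span_le_card _).trans (by simp)
    rw [h1, finrank_top, Module.finrank_fin_fun] at h2
    omega
  have hex : ∀ a : Fin n → K, ∃ c : K, s a = c • a := by
    intro a
    by_cases ha : a = 0
    · exact ⟨0, by rw [ha, h0, smul_zero]⟩
    · obtain ⟨b, hb⟩ := hout a
      obtain ⟨φ, h1, h2⟩ := hind a b ha hb
      have h3 := key φ a h1 b
      rw [h2, one_smul] at h3
      exact ⟨_, h3⟩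
  choose l hl using hex
  have hind2 : ∀ a b : Fin n → K, a ≠ 0 → b ∉ Submodule.span K {a} → l a = l b := by
    intro a b ha hb
    obtain ⟨φ, h1, h2⟩ := hind a b ha hb
    have h3 := key φ a h1 b
    rw [h2, one_smul, hl b, map_smul, h2, smul_eq_mul, mul_one, hl a] at h3
    have h4 : (l a - l b) • a = 0 := by rw [sub_smul, h3, sub_self]
    exact sub_eq_zero.mp ((smul_eq_zero.mp h4).resolve_right ha)
  obtain ⟨a₀, ha₀⟩ : ∃ a : Fin n → K, a ≠ 0 := by
    have : Nontrivial (Fin n → K) := by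
      haveI : Nonempty (Fin n) := ⟨⟨0, by omega⟩⟩
      infer_instance
    exact exists_ne 0
  refine ⟨l a₀, fun b => ?_⟩
  rw [hl b]
  by_cases hb0 : b = 0
  · rw [hb0, smul_zero, smul_zero]
  · congr 1
    by_cases hb : b ∈ Submodule.span K {a₀}
    · obtain ⟨c, hc⟩ := hout a₀
      have h1 := hind2 a₀ c ha₀ hc
      have h2 : c ∉ Submodule.span K {b} := by
        intro h
        exact hc ((Submodule.span_singleton_le_iff_mem _ _).mpr hb h)
      rw [h1, hind2 b c hb0 h2]
    · exact (hind2 a₀ b ha₀ hb).symm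

end Vale.Agent.P180.R2.H589.Bt
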