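import Vale.Agent.P180.R2.H589.Bt.Out3

/-!
P180: automorphisms of `PSL(n + 1, K)`, `n ≥ 2`, and semilinear maps.
-/

set_option linter.all false

namespace Vale.Agent.P180.R2.H589.Bt

open Subgroup Module
open scoped commutatorElement
open Vale.Agent.P180.R2.H589.Sch

section

variable {K : Type*} [Field K] {N : ℕ}

/-- A semilinear bijection conjugates `SL(N, K)` into itself. -/
theorem exists_conj (hN : 1 ≤ N) {σ : K ≃+* K} {g : (Fin N → K) ≃+ (Fin N → K)}
    (hg : ∀ (c : K) v, g (c • v) = σ c • g v) (x : GS N K) :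
    ∃ y : GS N K, ∀ v, g (nat N K x v) = nat N K y (g v) := by
  have hg' : ∀ (c : K) v, g.symm (c • v) = σ.symm c • g.symm v := by
    intro c v
    rw [AddEquiv.symm_apply_eq, hg, g.apply_symm_apply, σ.apply_symm_apply]
  refine tv_induction hN (fun x => ∃ y : GS N K, ∀ v, g (nat N K x v) = nat N K y (g v)) ?_ ?_ ?_ x
  · intro i j hij c
    let φ : Dual K (Fin N → K) :=
      { toFun := fun w => σ (c * g.symm w j)
        map_add' := by
          intro w w'
          rw [map_add, Pi.add_apply, mul_add, map_add]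
        map_smul' := by
          intro c' w
          rw [hg', Pi.smul_apply, smul_eq_mul, map_mul, map_mul, σ.apply_symm_apply, map_mul,
            RingHom.id_apply, smul_eq_mul]
          ring }
    have hφ : ∀ w, φ w = σ (c * g.symm w j) := fun w => rfl
    obtain ⟨y, hy⟩ := exists_tv (φ := φ) (a := g (Pi.single i 1)) (by
      rw [hφ, g.symm_apply_apply, Pi.single_eq_of_ne hij.symm, mul_zero, map_zero])
    refine ⟨y, fun v => ?_⟩
    rw [hy, hφ, g.symm_apply_apply, nat_apply, tv_mulVec, map_add, ← hg]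
    congr 2
    funext k
    rw [Pi.smul_apply, smul_eq_mul]
    by_cases hk : k = i
    · rw [hk, Pi.single_eq_same, Pi.single_eq_same, mul_one]
    · rw [Pi.single_eq_of_ne hk, Pi.single_eq_of_ne hk, mul_zero]
  · refine ⟨1, fun v => ?_⟩
    rw [map_one]
    rfl
  · rintro A B ⟨y, hy⟩ ⟨z, hz⟩
    refine ⟨y * z, fun v => ?_⟩
    rw [nat_mul_apply, hy, hz, nat_mul_apply]

end

variable {K : Type*} [Field K] {n : ℕ} {T : Type*} [Group T] {π : GS (n + 1) K →* T}

/-- the field automorphism -/
theorem exists_sigma [Finite K] (p : ℕ) [Fact p.Prime] [CharP K p] (hn : 2 ≤ n)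
    (hπ : Function.Surjective π) (hker : π.ker = center (GS (n + 1) K))
    {α : MulAut T} (hα : α ∈ AR π) {s : (Fin n → K) ≃+ (Fin n → K)}
    (hs : ∀ a, α (ct π a) = ct π (s a)) : ∃ σ : K ≃+* K, ∀ (c : K) a, s (c • a) = σ c • s a := by
  choose f hf using scalar_of_act p hn hπ hker hα hs
  obtain ⟨a₀, ha₀⟩ : ∃ a : Fin n → K, a ≠ 0 := by
    have : Nontrivial (Fin n → K) := by
      haveI : Nonempty (Fin n) := ⟨⟨0, by omega⟩⟩
      infer_instance
    exact exists_ne 0
  have hs0 : s a₀ ≠ 0 := by
    intro h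
    exact ha₀ (s.map_eq_zero_iff.mp h)
  have huniq : ∀ c d : K, c • s a₀ = d • s a₀ → c = d := by
    intro c d h
    have h2 : (c - d) • s a₀ = 0 := by rw [sub_smul, h, sub_self]
    exact sub_eq_zero.mp ((smul_eq_zero.mp h2).resolve_right hs0)
  let σ₀ : K →+* K :=
    { toFun := f
      map_one' := huniq _ _ (by rw [← hf, one_smul, one_smul])
      map_mul' := fun c d => huniq _ _ (by rw [← hf, mul_smul, hf, hf, smul_smul])
      map_zero' := huniq _ _ (by rw [← hf, zero_smul, zero_smul, map_zero])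
      map_add' := fun c d => huniq _ _ (by rw [← hf, add_smul, map_add, hf, hf, add_smul]) }
  have hbij : Function.Bijective σ₀ := Finite.injective_iff_bijective.mp σ₀.injective
  exact ⟨RingEquiv.ofBijective σ₀ hbij, fun c a => hf c a⟩

/-- affine points -/
def af (b : Fin n → K) : Fin (n + 1) → K := Fin.cons 1 b

theorem af_ne (b : Fin n → K) : af b ≠ 0 := by
  intro h
  have h1 : af b 0 = 0 := by rw [h]; rfl
  exact one_ne_zero (α := K) h1

theorem af_eq (b : Fin n → K) : af b = af 0 + ex b := by
  funext i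
  refine Fin.cases ?_ (fun j => ?_) i
  · rw [Pi.add_apply, ex_zero, add_zero]
    rfl
  · rw [Pi.add_apply, ex_succ]
    exact (zero_add _).symm

theorem cl_af (a b : Fin n → K) : nat (n + 1) K (cl a) (af b) = af (a + b) := by
  rw [cl_apply, af_eq (a + b), af_eq b, ex_add]
  have h1 : (af (0 : Fin n → K) + ex b) 0 = 1 := by
    rw [← af_eq]
    rfl
  rw [h1, one_smul]
  abel

/-- `α` maps the radical of `W` to the radical of `W'`. -/
def Mp (π : GS (n + 1) K →* T) (α : MulAut T) (W W' : Submodule K (Fin (n + 1) → K)) : Prop :=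
  ∀ t, α t ∈ RT π W' ↔ t ∈ RT π W

theorem span_iff {g : GS (n + 1) K} {v w : Fin (n + 1) → K} (h : nat (n + 1) K g v = w)
    (x : Fin (n + 1) → K) :
    nat (n + 1) K g x ∈ Submodule.span K {w} ↔ x ∈ Submodule.span K {v} := by
  rw [Submodule.mem_span_singleton, Submodule.mem_span_singleton, ← h]
  constructor
  · rintro ⟨c, hc⟩
    exact ⟨c, (nat (n + 1) K g).injective (by rw [map_smul, hc])⟩
  · rintro ⟨c, rfl⟩
    exact ⟨c, (map_smul _ _ _).symm⟩

theorem span_smul_eq {v : Fin (n + 1) → K} {c : K} (hc : c ≠ 0) :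
    Submodule.span K {c • v} = Submodule.span K {v} := by
  apply le_antisymm
  · rw [Submodule.span_singleton_le_iff_mem]
    exact Submodule.smul_mem _ _ (Submodule.mem_span_singleton_self v)
  · rw [Submodule.span_singleton_le_iff_mem]
    exact Submodule.mem_span_singleton.mpr ⟨c⁻¹, by rw [smul_smul, inv_mul_cancel₀ hc, one_smul]⟩

theorem RT_injective [Finite K] (p : ℕ) [Fact p.Prime] [CharP K p]
    (hker : π.ker = center (GS (n + 1) K)) {W W' : Submodule K (Fin (n + 1) → K)} (h0 : W ≠ ⊥)
    (h0' : W' ≠ ⊥) (h : RT π W = RT π W') : W = W' := by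
  have h1 := Lf_RT (p := p) hker W
  have h2 := Lf_RT (p := p) hker W'
  have h3 : RW W = RW W' := by
    rw [← h1, ← h2]
    ext x
    rw [mem_Lf, mem_Lf, h]
  rw [← Fx_RW h0, ← Fx_RW h0', h3]

theorem finrank_span_one {v : Fin (n + 1) → K} (hv : v ≠ 0) :
    finrank K (Submodule.span K {v}) = 1 := finrank_span_singleton hv

/-- Elements of `AR` permute the affine points. -/
theorem exists_af [Finite K] (p : ℕ) [Fact p.Prime] [CharP K p] (hn : 2 ≤ n)
    (hπ : Function.Surjective π) (hker : π.ker = center (GS (n + 1) K))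
    {α : MulAut T} (hα : α ∈ AR π) (b : Fin n → K) :
    ∃ b' : Fin n → K, Mp π α (Submodule.span K {af b}) (Submodule.span K {af b'}) := by
  obtain ⟨W, hW, hfin⟩ := finrank_of_aut p hn hπ hker α (V := Submodule.span K {af b})
    (Or.inl (finrank_span_one (af_ne b)))
  have hspan0 : Submodule.span K {af b} ≠ ⊥ := by
    intro h
    exact af_ne b (Submodule.span_singleton_eq_bot.mp h)
  have hH0 : H0 n K ≠ ⊥ := H0_ne_bot (by omega)
  -- dimension one
  have h1 : finrank K W = 1 := by
    rcases hfin with h | h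
    · exact h
    · exfalso
      obtain ⟨g, hg⟩ := exists_move_hyp h
      obtain ⟨y, hy⟩ := hπ (α.symm (π g))
      have hyg : α (π y) = π g := by rw [hy]; exact α.apply_symm_apply _
      have h2 : RT π (Submodule.span K {af b}) = RT π ((H0 n K).map
          ((nat (n + 1) K y : (Fin (n + 1) → K) ≃ₗ[K] (Fin (n + 1) → K)) :
            (Fin (n + 1) → K) →ₗ[K] (Fin (n + 1) → K))) := by
        ext t
        have hyW : ∀ x, nat (n + 1) K y x ∈ (H0 n K).map
            ((nat (n + 1) K y : (Fin (n + 1) → K) ≃ₗ[K] (Fin (n + 1) → K)) :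
            (Fin (n + 1) → K) →ₗ[K] (Fin (n + 1) → K)) ↔ x ∈ H0 n K := by
          intro x
          constructor
          · rintro ⟨z, hz, hzx⟩
            have h3 : z = x := (nat (n + 1) K y).injective hzx
            rwa [← h3]
          · intro hx
            exact ⟨x, hx, rfl⟩
        have e1 : t = π y * ((π y)⁻¹ * t * π y) * (π y)⁻¹ := by group
        have e2 : α t = π g * ((π g)⁻¹ * α t * π g) * (π g)⁻¹ := by group
        rw [← mem_map_aut α, hW, e2, ← RT_conj hg]
        nth_rewrite 2 [e1]
        rw [← RT_conj hyW, ← hα ((π y)⁻¹ * t * π y), map_mul, map_mul, map_inv, hyg]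
      have h3 := RT_injective p hker hspan0 (by
        intro h4
        apply hH0
        rw [eq_bot_iff]
        intro x hx
        have h5 : nat (n + 1) K y x ∈ (H0 n K).map
            ((nat (n + 1) K y : (Fin (n + 1) → K) ≃ₗ[K] (Fin (n + 1) → K)) :
            (Fin (n + 1) → K) →ₗ[K] (Fin (n + 1) → K)) := ⟨x, hx, rfl⟩
        rw [h4, Submodule.mem_bot] at h5
        exact (nat (n + 1) K y).map_eq_zero_iff.mp h5) h2
      have h4 := finrank_span_one (af_ne b)
      rw [h3, LinearEquiv.finrank_map_eq, finrank_H0] at h4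
      omega
  obtain ⟨w, hw, hWw⟩ : ∃ w : Fin (n + 1) → K, w ≠ 0 ∧ W = Submodule.span K {w} := by
    obtain ⟨v, hv, h⟩ := finrank_eq_one_iff'.mp h1
    refine ⟨v, fun h0 => hv (Subtype.ext h0), le_antisymm (fun w hw => ?_) ?_⟩
    · obtain ⟨c, hc⟩ := h ⟨w, hw⟩
      exact Submodule.mem_span_singleton.mpr ⟨c, congrArg Subtype.val hc⟩
    · rw [Submodule.span_singleton_le_iff_mem]
      exact v.2
  subst hWw
  -- the point is affine
  have hw0 : w 0 ≠ 0 := by
    intro h0
    have hle : (RT π (Submodule.span K {w}) : Subgroup T) ≤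
        normalizer ((RT π (H0 n K) : Subgroup T) : Set T) := by
      rintro _ ⟨r, hr, rfl⟩
      rw [mem_normalizer_RT (p := p) hker hH0]
      refine PW_of_le fun x hx => ?_
      have h2 : nat (n + 1) K r x - x ∈ H0 n K := by
        have h3 : Submodule.span K {w} ≤ H0 n K := by
          rw [Submodule.span_singleton_le_iff_mem]
          exact h0
        exact h3 (hr.2 x)
      have h3 := Submodule.add_mem _ h2 hx
      rwa [sub_add_cancel] at h3
    -- a transvection with centre `af b`
    let a : Fin n → K := Pi.single ⟨0, by omega⟩ 1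
    have haf : ex a ∉ Submodule.span K {af b} := by
      intro h
      obtain ⟨c, hc⟩ := Submodule.mem_span_singleton.mp h
      have h2 : (c • af b) 0 = 0 := by rw [hc]; rfl
      have h3 : c = 0 := by
        have h4 : (c • af b) 0 = c * 1 := rfl
        rw [h4, mul_one] at h2
        exact h2
      rw [h3, zero_smul] at hc
      have h4 := congrFun hc (Fin.succ ⟨0, by omega⟩)
      have h5 : ex a (Fin.succ ⟨0, by omega⟩) = 1 := by
        rw [ex_succ]
        exact Pi.single_eq_same (M := fun _ => K) _ _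
      rw [h5] at h4
      exact zero_ne_one h4
    obtain ⟨φ, hφ, hφa⟩ := exists_sep haf
    have hφb : φ (af b) = 0 := hφ _ (Submodule.mem_span_singleton_self _)
    obtain ⟨r, hr⟩ := exists_tv hφb
    have hrm : r ∈ RW (Submodule.span K {af b}) :=
      tv_mem_RW hφ (Submodule.mem_span_singleton_self _) hr
    have h2 : α (π r) ∈ RT π (Submodule.span K {w}) := by
      rw [← hW, mem_map_aut]
      exact ⟨r, hrm, rfl⟩
    have h3 := hle h2
    have h4 : π r ∈ normalizer ((RT π (H0 n K) : Subgroup T) : Set T) := by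
      rw [mem_normalizer_iff] at h3 ⊢
      intro t
      have h5 := h3 (α t)
      rwa [hα, ← map_inv, ← map_mul, ← map_mul, hα] at h5
    rw [mem_normalizer_RT (p := p) hker hH0] at h4
    have h5 := (h4 (ex a)).2 (ex_mem a)
    rw [hr, hφa, one_smul, mem_H0, Pi.add_apply, ex_zero, zero_add] at h5
    exact one_ne_zero (α := K) h5
  refine ⟨(w 0)⁻¹ • tl w, ?_⟩
  have h2 : af ((w 0)⁻¹ • tl w) = (w 0)⁻¹ • w := by
    funext i
    refine Fin.cases ?_ (fun j => rfl) i
    rw [Pi.smul_apply, smul_eq_mul, inv_mul_cancel₀ hw0]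
    rfl
  intro t
  rw [h2, span_smul_eq (inv_ne_zero hw0), ← hW, mem_map_aut]

/-- An element for which all affine points are eigenvectors is a scalar. -/
theorem central_of_eig (hn : 2 ≤ n) {z : GS (n + 1) K}
    (h : ∀ b : Fin n → K, nat (n + 1) K z (af b) ∈ Submodule.span K {af b}) :
    z ∈ center (GS (n + 1) K) := by
  choose c hc using fun b => Submodule.mem_span_singleton.mp (h b)
  have key : ∀ b b' : Fin n → K, b ≠ 0 → b' ∉ Submodule.span K {b} → c b = c 0 ∧ c b' = c 0 := by
    intro b b' hb hb'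
    have e1 : af (b + b') = af b + af b' - af 0 := by
      rw [af_eq (b + b'), af_eq b, af_eq b', ex_add]
      abel
    have e2 := congrArg (nat (n + 1) K z) e1
    rw [map_sub, map_add, ← hc, ← hc, ← hc, ← hc] at e2
    have e3 : c (b + b') = c b + c b' - c 0 := by
      have := congrFun e2 0
      simpa [af] using this
    have e4 : c (b + b') • (b + b') = c b • b + c b' • b' := by
      have := congrArg tl e2
      have t1 : ∀ (d : K) (x : Fin n → K), tl (d • af x) = d • x := fun d x => rfl
      have t2 : ∀ x y : Fin (n + 1) → K, tl (x - y) = tl x - tl y := fun x y => rfl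
      rw [t2, tl_add, t1, t1, t1, t1, smul_zero, sub_zero] at this
      exact this
    have e5 : (c (b + b') - c b) • b + (c (b + b') - c b') • b' = 0 := by
      have : (c (b + b') - c b) • b + (c (b + b') - c b') • b' =
          c (b + b') • (b + b') - (c b • b + c b' • b') := by module
      rw [this, e4, sub_self]
    have e6 := (LinearIndependent.pair_iff.mp (linInd_pair hb hb')) _ _ e5
    have e7 := sub_eq_zero.mp e6.1
    have e8 := sub_eq_zero.mp e6.2
    constructor
    · have : c b' = c b := by rw [← e7, e8]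
      rw [e7, this] at e3
      have e9 : c b - c 0 = 0 := by
        have : c b + c b - c 0 - c b = 0 := by rw [← e3, sub_self]
        rw [← this]; ring
      exact sub_eq_zero.mp e9
    · have : c b = c b' := by rw [← e8, e7]
      rw [e8, this] at e3
      have e9 : c b' - c 0 = 0 := by
        have : c b' + c b' - c 0 - c b' = 0 := by rw [← e3, sub_self]
        rw [← this]; ring
      exact sub_eq_zero.mp e9
  have hout : ∀ a : Fin n → K, ∃ b, b ∉ Submodule.span K {a} := by
    intro a
    by_contra hcon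
    push Not at hcon
    have h1 : Submodule.span K {a} = ⊤ := by
      rw [eq_top_iff]; intro x _; exact hcon x
    have h2 : finrank K (Submodule.span K {a}) ≤ 1 := (finrank_span_le_card _).trans (by simp)
    rw [h1, finrank_top, Module.finrank_fin_fun] at h2
    omega
  have hall : ∀ b, c b = c 0 := by
    intro b
    by_cases hb : b = 0
    · rw [hb]
    · obtain ⟨b', hb'⟩ := hout b
      exact (key b b' hb hb').1
  rw [mem_center_iff']
  refine ⟨c 0, fun x => ?_⟩
  have e1 : x = x 0 • af 0 + (af (tl x) - af 0) := by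
    rw [af_eq (tl x), add_sub_cancel_left]
    funext i
    refine Fin.cases ?_ (fun j => ?_) i
    · rw [Pi.add_apply, ex_zero, add_zero, Pi.smul_apply, smul_eq_mul]
      exact (mul_one _).symm
    · rw [Pi.add_apply, ex_succ, Pi.smul_apply, smul_eq_mul]
      have : (af (0 : Fin n → K)) j.succ = 0 := rfl
      rw [this, mul_zero, zero_add]
      rfl
  nth_rewrite 1 [e1]
  rw [map_add, map_smul, map_sub, ← hc, ← hc, hall (tl x)]
  refine Eq.trans ?_ (congrArg (fun y => c 0 • y) e1).symm
  module

/-- the semilinear map of `K ^ (n + 1)` -/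
def g0 (σ : K ≃+* K) (s : (Fin n → K) ≃+ (Fin n → K)) :
    (Fin (n + 1) → K) ≃+ (Fin (n + 1) → K) where
  toFun x := Fin.cons (σ (x 0)) (s (tl x))
  invFun x := Fin.cons (σ.symm (x 0)) (s.symm (tl x))
  left_inv x := by
    funext i
    refine Fin.cases ?_ (fun j => ?_) i
    · exact σ.symm_apply_apply _
    · exact congrFun (s.symm_apply_apply (tl x)) j
  right_inv x := by
    funext i
    refine Fin.cases ?_ (fun j => ?_) i
    · exact σ.apply_symm_apply _
    · exact congrFun (s.apply_symm_apply (tl x)) j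
  map_add' x y := by
    funext i
    refine Fin.cases ?_ (fun j => ?_) i
    · exact map_add σ (x 0) (y 0)
    · exact congrFun (map_add s (tl x) (tl y)) j

theorem g0_apply (σ : K ≃+* K) (s : (Fin n → K) ≃+ (Fin n → K)) (x : Fin (n + 1) → K) :
    g0 σ s x = Fin.cons (σ (x 0)) (s (tl x)) := rfl

theorem g0_smul {σ : K ≃+* K} {s : (Fin n → K) ≃+ (Fin n → K)}
    (h : ∀ (c : K) a, s (c • a) = σ c • s a) (c : K) (x : Fin (n + 1) → K) :
    g0 σ s (c • x) = σ c • g0 σ s x := by
  funext i
  refine Fin.cases ?_ (fun j => ?_) i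
  · exact map_mul σ c (x 0)
  · exact congrFun (h c (tl x)) j

theorem g0_af (σ : K ≃+* K) (s : (Fin n → K) ≃+ (Fin n → K)) (b : Fin n → K) :
    g0 σ s (af b) = af (s b) := by
  funext i
  refine Fin.cases ?_ (fun j => rfl) i
  exact map_one σ

/-- the basic transfer -/
theorem normalizer_of_Mp {α : MulAut T} {g : (Fin (n + 1) → K) ≃+ (Fin (n + 1) → K)}
    {x y : GS (n + 1) K} (hxy : ∀ v, g (nat (n + 1) K x v) = nat (n + 1) K y (g v))
    {v : Fin (n + 1) → K} (h1 : Mp π α (Submodule.span K {v}) (Submodule.span K {g v}))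
    (h2 : Mp π α (Submodule.span K {nat (n + 1) K x v})
      (Submodule.span K {g (nat (n + 1) K x v)})) :
    (π y)⁻¹ * α (π x) ∈
      normalizer ((RT π (Submodule.span K {g v}) : Subgroup T) : Set T) := by
  rw [mem_normalizer_iff]
  intro t
  obtain ⟨t, rfl⟩ := α.surjective t
  rw [h1, RT_conj (π := π) (g := x) (W' := Submodule.span K {nat (n + 1) K x v})
    (fun w => span_iff rfl w), ← h2, hxy, map_mul, map_mul, map_inv]
  have e1 : α (π x) * α t * (α (π x))⁻¹ =
      π y * ((π y)⁻¹ * α (π x) * α t * ((π y)⁻¹ * α (π x))⁻¹) * (π y)⁻¹ := by group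
  rw [e1, ← RT_conj (π := π) (g := y) (fun w => span_iff rfl w)]

/-- An element of `AR` which fixes the point `af 0` is induced by `g0`. -/
theorem ind_g0 [Finite K] (p : ℕ) [Fact p.Prime] [CharP K p] (hn : 2 ≤ n)
    (hπ : Function.Surjective π) (hker : π.ker = center (GS (n + 1) K))
    {α : MulAut T} (hα : α ∈ AR π) {σ : K ≃+* K} {s : (Fin n → K) ≃+ (Fin n → K)}
    (hs : ∀ a, α (ct π a) = ct π (s a)) (hσ : ∀ (c : K) a, s (c • a) = σ c • s a)
    (h0 : Mp π α (Submodule.span K {af 0}) (Submodule.span K {af 0}))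
    {x y : GS (n + 1) K}
    (hxy : ∀ v, g0 σ s (nat (n + 1) K x v) = nat (n + 1) K y (g0 σ s v)) :
    α (π x) = π y := by
  have hg := g0_smul hσ
  have hone : ∀ {z : GS (n + 1) K}, z ∈ center (GS (n + 1) K) → π z = 1 := by
    intro z hz
    rw [← hker] at hz
    exact hz
  -- affine points
  have haf : ∀ b, Mp π α (Submodule.span K {af b}) (Submodule.span K {af (s b)}) := by
    intro b t
    have e1 : nat (n + 1) K (cl (-b)) (af b) = af 0 := by rw [cl_af, neg_add_cancel]
    have e2 : nat (n + 1) K (cl (-(s b))) (af (s b)) = af 0 := by rw [cl_af, neg_add_cancel]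
    rw [RT_conj (π := π) (g := cl (-b)) (fun w => span_iff e1 w), ← h0,
      RT_conj (π := π) (g := cl (-(s b))) (fun w => span_iff e2 w), map_mul, map_mul, map_inv]
    have e3 : α (π (cl (-b))) = π (cl (-(s b))) := by
      have := hs (-b)
      rw [map_neg] at this
      exact this
    rw [e3]
  have haff : ∀ v : Fin (n + 1) → K, v 0 ≠ 0 →
      Mp π α (Submodule.span K {v}) (Submodule.span K {g0 σ s v}) := by
    intro v hv
    have e1 : v = v 0 • af ((v 0)⁻¹ • tl v) := by
      funext i
      refine Fin.cases ?_ (fun j => ?_) i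
      · rw [Pi.smul_apply, smul_eq_mul]
        exact (mul_one _).symm
      · have : af ((v 0)⁻¹ • tl v) j.succ = (v 0)⁻¹ * v j.succ := rfl
        rw [Pi.smul_apply, smul_eq_mul, this, mul_inv_cancel_left₀ hv]
    have h1 := haf ((v 0)⁻¹ • tl v)
    rw [← g0_af σ s, ← span_smul_eq (v := af ((v 0)⁻¹ • tl v)) hv,
      ← span_smul_eq (v := g0 σ s (af ((v 0)⁻¹ • tl v))) (c := σ (v 0))
      (by rw [Ne, map_eq_zero_iff σ σ.injective]; exact hv), ← hg, ← e1] at h1
    exact h1
  -- step 1: elements which stabilise the hyperplane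
  have hstep1 : ∀ {x y : GS (n + 1) K}, x ∈ PW (H0 n K) →
      (∀ v, g0 σ s (nat (n + 1) K x v) = nat (n + 1) K y (g0 σ s v)) → α (π x) = π y := by
    intro x y hx hxy
    obtain ⟨z, hz⟩ := hπ ((π y)⁻¹ * α (π x))
    have hzc : z ∈ center (GS (n + 1) K) := by
      apply central_of_eig hn
      intro b
      have h1 : ((af (s.symm b) : Fin (n + 1) → K)) 0 ≠ 0 := one_ne_zero (α := K)
      have h2 := normalizer_of_Mp (π := π) hxy (haff (af (s.symm b)) h1)
        (haff _ (fun h => h1 (mem_H0.mp ((hx _).1 (mem_H0.mpr h)))))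
      rw [g0_af, s.apply_symm_apply, ← hz, mem_normalizer_RT (p := p) hker
        (fun h => af_ne b (Submodule.span_singleton_eq_bot.mp h))] at h2
      exact (h2 _).2 (Submodule.mem_span_singleton_self _)
    rw [hone hzc] at hz
    exact (inv_mul_eq_one.mp hz.symm).symm
  -- the points of the hyperplane
  have hall : ∀ v : Fin (n + 1) → K, v ≠ 0 →
      Mp π α (Submodule.span K {v}) (Submodule.span K {g0 σ s v}) := by
    intro v hv
    by_cases hv0 : v 0 = 0
    · have hgv : g0 σ s v ≠ 0 := by
        intro h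
        exact hv ((g0 σ s).map_eq_zero_iff.mp h)
      have hle : (RT π (Submodule.span K {v})).map α.toMonoidHom ≤
          RT π (Submodule.span K {g0 σ s v}) := by
        rintro _ ⟨_, ⟨r, hr, rfl⟩, rfl⟩
        obtain ⟨y, hy⟩ := exists_conj (by omega) hg r
        have h1 : r ∈ PW (H0 n K) := by
          refine PW_of_le fun x hx => ?_
          have h2 : nat (n + 1) K r x - x ∈ H0 n K := by
            have h3 : Submodule.span K {v} ≤ H0 n K := by
              rw [Submodule.span_singleton_le_iff_mem]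
              exact hv0
            exact h3 (hr.2 x)
          have h3 := Submodule.add_mem _ h2 hx
          rwa [sub_add_cancel] at h3
        refine ⟨y, ?_, (hstep1 h1 hy).symm⟩
        refine ⟨fun w hw => ?_, fun w => ?_⟩
        · obtain ⟨c, rfl⟩ := Submodule.mem_span_singleton.mp hw
          rw [map_smul, ← hy, hr.1 v (Submodule.mem_span_singleton_self v)]
        · obtain ⟨u, rfl⟩ := (g0 σ s).surjective w
          rw [← hy, ← map_sub]
          obtain ⟨c, hc⟩ := Submodule.mem_span_singleton.mp (hr.2 u)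
          rw [← hc, hg]
          exact Submodule.smul_mem _ _ (Submodule.mem_span_singleton_self _)
      haveI : Finite T := Finite.of_surjective π hπ
      have hcard : Nat.card (RT π (Submodule.span K {g0 σ s v})) ≤
          Nat.card ((RT π (Submodule.span K {v})).map α.toMonoidHom) := by
        have h1 : Nat.card ((RT π (Submodule.span K {v})).map α.toMonoidHom) =
            Nat.card (RT π (Submodule.span K {v})) :=
          (Nat.card_congr (α.subgroupMap (RT π (Submodule.span K {v}))).toEquiv).symm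
        rw [h1, card_RT p hker, card_RT p hker, card_RW p, card_RW p, finrank_span_one hv,
          finrank_span_one hgv]
      have heq := Subgroup.eq_of_le_of_card_ge hle hcard
      intro t
      rw [← heq, mem_map_aut]
    · exact haff v hv0
  -- step 2
  obtain ⟨z, hz⟩ := hπ ((π y)⁻¹ * α (π x))
  have hzc : z ∈ center (GS (n + 1) K) := by
    apply central_of_eig hn
    intro b
    have h2 := normalizer_of_Mp (π := π) hxy (hall (af (s.symm b)) (af_ne _)) (hall _ (by
      intro h
      exact af_ne (s.symm b) ((nat (n + 1) K x).map_eq_zero_iff.mp h)))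
    rw [g0_af, s.apply_symm_apply, ← hz, mem_normalizer_RT (p := p) hker
      (fun h => af_ne b (Submodule.span_singleton_eq_bot.mp h))] at h2
    exact (h2 _).2 (Submodule.mem_span_singleton_self _)
  rw [hone hzc] at hz
  exact (inv_mul_eq_one.mp hz.symm).symm

/-- `α` is induced by the semilinear map `g`. -/
def IndBy (π : GS (n + 1) K →* T) (α : MulAut T)
    (g : (Fin (n + 1) → K) ≃+ (Fin (n + 1) → K)) : Prop :=
  ∀ x y : GS (n + 1) K, (∀ v, g (nat (n + 1) K x v) = nat (n + 1) K y (g v)) → α (π x) = π y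

/-- The automorphisms induced by semilinear maps. -/
def SL (π : GS (n + 1) K →* T) : Subgroup (MulAut T) where
  carrier := {α | ∃ (σ : K ≃+* K) (g : (Fin (n + 1) → K) ≃+ (Fin (n + 1) → K)),
    (∀ (c : K) v, g (c • v) = σ c • g v) ∧ IndBy π α g}
  one_mem' := by
    refine ⟨RingEquiv.refl K, AddEquiv.refl _, fun c v => rfl, fun x y h => ?_⟩
    have : x = y := nat_injective (LinearEquiv.ext h)
    rw [this]
    rfl
  mul_mem' := by
    rintro α β ⟨σ, g, hg, hα⟩ ⟨τ, h, hh, hβ⟩
    refine ⟨τ.trans σ, h.trans g, fun c v => ?_, fun x y hxy => ?_⟩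
    · change g (h (c • v)) = σ (τ c) • g (h v)
      rw [hh, hg]
    · obtain ⟨z, hz⟩ := exists_conj (by omega) hh x
      rw [MulAut.mul_apply, hβ x z hz]
      refine hα z y fun v => ?_
      obtain ⟨u, rfl⟩ := h.surjective v
      rw [← hz]
      exact hxy u
  inv_mem' := by
    rintro α ⟨σ, g, hg, hα⟩
    have hg' : ∀ (c : K) v, g.symm (c • v) = σ.symm c • g.symm v := by
      intro c v
      rw [AddEquiv.symm_apply_eq, hg, g.apply_symm_apply, σ.apply_symm_apply]
    refine ⟨σ.symm, g.symm, hg', fun x y hxy => ?_⟩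
    apply α.injective
    have h1 : α (α⁻¹ (π x)) = π x := α.apply_symm_apply _
    rw [h1]
    symm
    refine hα y x fun v => ?_
    obtain ⟨u, rfl⟩ := g.symm.surjective v
    rw [← hxy, g.apply_symm_apply, g.apply_symm_apply]

theorem inn_le_SL (hπ : Function.Surjective π) :
    (MulAut.conj : T →* MulAut T).range ≤ SL π := by
  rintro _ ⟨t, rfl⟩
  obtain ⟨g, rfl⟩ := hπ t
  refine ⟨RingEquiv.refl K, (nat (n + 1) K g).toAddEquiv,
    fun c v => (nat (n + 1) K g).map_smul c v, fun x y h => ?_⟩
  have h1 : g * x = y * g := nat_injective (LinearEquiv.ext fun v => by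
    rw [nat_mul_apply, nat_mul_apply]
    exact h v)
  rw [MulAut.conj_apply, ← map_mul, h1, map_mul, mul_inv_cancel_right]

theorem AR_le_SL [Finite K] (p : ℕ) [Fact p.Prime] [CharP K p] (hn : 2 ≤ n)
    (hπ : Function.Surjective π) (hker : π.ker = center (GS (n + 1) K)) : AR π ≤ SL π := by
  intro α hα
  obtain ⟨s, hs⟩ := exists_act p hker hα
  obtain ⟨σ, hσ⟩ := exists_sigma p hn hπ hker hα hs
  obtain ⟨b, hb⟩ := exists_af p hn hπ hker hα 0
  -- the translation
  have hconj : MulAut.conj (ct π (-b)) ∈ AR π := by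
    intro t
    rw [MulAut.conj_apply]
    have h1 : ct π (-b) ∈ normalizer ((RT π (H0 n K) : Subgroup T) : Set T) :=
      le_normalizer (ct_mem (-b))
    exact (mem_normalizer_iff.mp h1 t).symm
  have hα' : MulAut.conj (ct π (-b)) * α ∈ AR π := (AR π).mul_mem hconj hα
  have hs' : ∀ a, (MulAut.conj (ct π (-b)) * α) (ct π a) = ct π (s a) := by
    intro a
    rw [MulAut.mul_apply, hs, MulAut.conj_apply, ← ct_add, add_comm, ct_add,
      mul_inv_cancel_right]
  have h0 : Mp π (MulAut.conj (ct π (-b)) * α) (Submodule.span K {af 0})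
      (Submodule.span K {af 0}) := by
    intro t
    have e1 : nat (n + 1) K (cl (-b)) (af b) = af 0 := by rw [cl_af, neg_add_cancel]
    rw [MulAut.mul_apply, MulAut.conj_apply, ct,
      ← RT_conj (π := π) (g := cl (-b)) (fun w => span_iff e1 w), hb]
  have h1 : MulAut.conj (ct π (-b)) * α ∈ SL π :=
    ⟨σ, g0 σ s, g0_smul hσ, fun x y hxy => ind_g0 p hn hπ hker hα' hs' hσ h0 hxy⟩
  have h2 : α = (MulAut.conj (ct π (-b)))⁻¹ * (MulAut.conj (ct π (-b)) * α) := by group
  rw [h2]
  exact (SL π).mul_mem ((SL π).inv_mem (inn_le_SL hπ ⟨_, rfl⟩)) h1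

/-- **Automorphisms of `PSL(n + 1, K)`**: the squares, hence all automorphisms of odd order, are
induced by semilinear maps. -/
theorem sq_mem_SL [Finite K] (hn : 2 ≤ n)
    (hπ : Function.Surjective π) (hker : π.ker = center (GS (n + 1) K)) (α : MulAut T) :
    α * α ∈ SL π := by
  haveI hp : Fact (ringChar K).Prime := ⟨CharP.char_is_prime K (ringChar K)⟩
  have h1 : α * α ∈ (MulAut.conj : T →* MulAut T).range ⊔ AR π :=
    (mul_mem_sup_iff (ringChar K) hn hπ hker α α).mpr Iff.rfl
  exact (sup_le (inn_le_SL hπ) (AR_le_SL (ringChar K) hn hπ hker)) h1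

theorem odd_mem_SL [Finite K] (hn : 2 ≤ n)
    (hπ : Function.Surjective π) (hker : π.ker = center (GS (n + 1) K)) {α : MulAut T} {m : ℕ}
    (hm : Odd m) (h : α ^ m = 1) : α ∈ SL π := by
  obtain ⟨k, rfl⟩ := hm
  have h1 : α = (α * α) ^ (k + 1) := by
    rw [← sq, ← pow_mul]
    have : 2 * (k + 1) = (2 * k + 1) + 1 := by ring
    rw [this, pow_succ, h, one_mul]
  rw [h1]
  exact Subgroup.pow_mem _ (sq_mem_SL hn hπ hker α) _

end Vale.Agent.P180.R2.H589.Bt
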